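import Vale.Agent.Lib.P340.Defs

/-!
# Basic lemmas on pure type systems: renaming of sorts, monotonicity, finite support
-/

namespace Vale.Agent.Lib.P340

universe u v

variable {S : Type u} {T : Type v}

/-! ### Renaming of sorts -/

/-- Apply a function to every sort occurring in a term. -/
def Tm.map (f : S → T) : Tm S → Tm T
  | .var n => .var n
  | .sort s => .sort (f s)
  | .app M N => .app (Tm.map f M) (Tm.map f N)
  | .lam A M => .lam (Tm.map f A) (Tm.map f M)
  | .pi A B => .pi (Tm.map f A) (Tm.map f B)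

theorem map_lift (f : S → T) (M : Tm S) (c : ℕ) :
    Tm.map f (lift c M) = lift c (Tm.map f M) := by
  induction M generalizing c with
  | var n => by_cases h : n < c <;> simp [lift, Tm.map, h]
  | sort s => simp [lift, Tm.map]
  | app M N ihM ihN => simp [lift, Tm.map, ihM, ihN]
  | lam A M ihA ihM => simp [lift, Tm.map, ihA, ihM]
  | pi A B ihA ihB => simp [lift, Tm.map, ihA, ihB]

theorem map_subst (f : S → T) (M N : Tm S) (k : ℕ) :
    Tm.map f (subst k N M) = subst k (Tm.map f N) (Tm.map f M) := by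
  induction M generalizing k N with
  | var n =>
    by_cases h : n < k
    · simp [subst, Tm.map, h]
    · by_cases h' : n = k <;> simp [subst, Tm.map, h, h']
  | sort s => simp [subst, Tm.map]
  | app M P ihM ihP => simp [subst, Tm.map, ihM, ihP]
  | lam A M ihA ihM => simp [subst, Tm.map, ihA, ihM, map_lift]
  | pi A B ihA ihB => simp [subst, Tm.map, ihA, ihB, map_lift]

theorem map_map {U : Type*} (f : S → T) (g : T → U) (M : Tm S) :
    Tm.map g (Tm.map f M) = Tm.map (g ∘ f) M := by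
  induction M with
  | var n => rfl
  | sort s => rfl
  | app M N ihM ihN => simp [Tm.map, ihM, ihN]
  | lam A M ihA ihM => simp [Tm.map, ihA, ihM]
  | pi A B ihA ihB => simp [Tm.map, ihA, ihB]

theorem map_id' (f : S → S) (hf : ∀ s, f s = s) (M : Tm S) : Tm.map f M = M := by
  induction M with
  | var n => rfl
  | sort s => simp [Tm.map, hf]
  | app M N ihM ihN => simp [Tm.map, ihM, ihN]
  | lam A M ihA ihM => simp [Tm.map, ihA, ihM]
  | pi A B ihA ihB => simp [Tm.map, ihA, ihB]

theorem Step.map (f : S → T) {M N : Tm S} (h : Step M N) :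
    Step (Tm.map f M) (Tm.map f N) := by
  induction h with
  | beta A M N =>
    simp only [Tm.map, map_subst]
    exact Step.beta _ _ _
  | appL N _ ih => exact Step.appL _ ih
  | appR M _ ih => exact Step.appR _ ih
  | lamL M _ ih => exact Step.lamL _ ih
  | lamR A _ ih => exact Step.lamR _ ih
  | piL B _ ih => exact Step.piL _ ih
  | piR A _ ih => exact Step.piR _ ih

theorem Conv.map (f : S → T) {M N : Tm S} (h : Conv M N) :
    Conv (Tm.map f M) (Tm.map f N) := by
  induction h with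
  | rel x y hxy => exact Relation.EqvGen.rel _ _ (Step.map f hxy)
  | refl x => exact Relation.EqvGen.refl _
  | symm x y _ ih => exact Relation.EqvGen.symm _ _ ih
  | trans x y z _ _ ih₁ ih₂ => exact Relation.EqvGen.trans _ _ _ ih₁ ih₂

/-- A step out of `map f M` comes with a step out of `M` (redexes do not depend on sorts). -/
theorem step_of_map_step (f : S → T) (M : Tm S) {N' : Tm T} (h : Step (Tm.map f M) N') :
    ∃ N : Tm S, Step M N := by
  induction M generalizing N' with
  | var n => cases h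
  | sort s => cases h
  | app M P ihM ihP =>
    cases M with
    | lam A₁ M₁ => exact ⟨_, Step.beta _ _ _⟩
    | var n =>
      simp only [Tm.map] at h
      cases h with
      | appL _ h' => cases h'
      | appR _ h' => obtain ⟨N, hN⟩ := ihP h'; exact ⟨_, Step.appR _ hN⟩
    | sort s =>
      simp only [Tm.map] at h
      cases h with
      | appL _ h' => cases h'
      | appR _ h' => obtain ⟨N, hN⟩ := ihP h'; exact ⟨_, Step.appR _ hN⟩
    | app M₁ M₂ =>
      simp only [Tm.map] at h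
      cases h with
      | appL _ h' => obtain ⟨N, hN⟩ := ihM (by simpa only [Tm.map] using h'); exact ⟨_, Step.appL _ hN⟩
      | appR _ h' => obtain ⟨N, hN⟩ := ihP h'; exact ⟨_, Step.appR _ hN⟩
    | pi M₁ M₂ =>
      simp only [Tm.map] at h
      cases h with
      | appL _ h' => obtain ⟨N, hN⟩ := ihM (by simpa only [Tm.map] using h'); exact ⟨_, Step.appL _ hN⟩
      | appR _ h' => obtain ⟨N, hN⟩ := ihP h'; exact ⟨_, Step.appR _ hN⟩
  | lam A M ihA ihM =>
    simp only [Tm.map] at h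
    cases h with
    | lamL _ h' => obtain ⟨N, hN⟩ := ihA h'; exact ⟨_, Step.lamL _ hN⟩
    | lamR _ h' => obtain ⟨N, hN⟩ := ihM h'; exact ⟨_, Step.lamR _ hN⟩
  | pi A B ihA ihB =>
    simp only [Tm.map] at h
    cases h with
    | piL _ h' => obtain ⟨N, hN⟩ := ihA h'; exact ⟨_, Step.piL _ hN⟩
    | piR _ h' => obtain ⟨N, hN⟩ := ihB h'; exact ⟨_, Step.piR _ hN⟩

theorem HasNormalForm.map (f : S → T) {M : Tm S} (h : HasNormalForm M) :
    HasNormalForm (Tm.map f M) := by
  obtain ⟨N, hMN, hN⟩ := h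
  refine ⟨Tm.map f N, ?_, ?_⟩
  · clear hN
    induction hMN with
    | refl => exact Relation.ReflTransGen.refl
    | tail _ hbc ih => exact Relation.ReflTransGen.tail ih (Step.map f hbc)
  · intro N' hN'
    obtain ⟨N₀, hN₀⟩ := step_of_map_step f N hN'
    exact hN N₀ hN₀

theorem HasInfiniteReduction.map (f : S → T) {M : Tm S} (h : HasInfiniteReduction M) :
    HasInfiniteReduction (Tm.map f M) := by
  obtain ⟨g, hg0, hg⟩ := h
  exact ⟨fun n => Tm.map f (g n), by simp [hg0], fun n => Step.map f (hg n)⟩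

/-- Typing is preserved by a map of sorts that respects axioms and rules. -/
theorem Typing.map {Ax : S → S → Prop} {Ru : S → S → S → Prop}
    {Ax' : T → T → Prop} {Ru' : T → T → T → Prop} (f : S → T)
    (hAx : ∀ a b, Ax a b → Ax' (f a) (f b))
    (hRu : ∀ a b c, Ru a b c → Ru' (f a) (f b) (f c))
    {Γ : List (Tm S)} {M N : Tm S} (h : Typing Ax Ru Γ M N) :
    Typing Ax' Ru' (Γ.map (Tm.map f)) (Tm.map f M) (Tm.map f N) := by
  induction h with
  | ax h => exact Typing.ax (hAx _ _ h)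
  | var _ ih =>
    simp only [List.map_cons, map_lift]
    exact Typing.var ih
  | weak _ _ ih₁ ih₂ =>
    simp only [List.map_cons, map_lift]
    exact Typing.weak ih₁ ih₂
  | prod hr _ _ ih₁ ih₂ => exact Typing.prod (hRu _ _ _ hr) ih₁ ih₂
  | abs _ _ ih₁ ih₂ => exact Typing.abs ih₁ ih₂
  | app _ _ ih₁ ih₂ =>
    simp only [map_subst]
    exact Typing.app ih₁ ih₂
  | conv _ _ hc ih₁ ih₂ => exact Typing.conv ih₁ ih₂ (Conv.map f hc)

theorem Legal.map {Ax : S → S → Prop} {Ru : S → S → S → Prop}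
    {Ax' : T → T → Prop} {Ru' : T → T → T → Prop} (f : S → T)
    (hAx : ∀ a b, Ax a b → Ax' (f a) (f b))
    (hRu : ∀ a b c, Ru a b c → Ru' (f a) (f b) (f c))
    {M : Tm S} (h : Legal Ax Ru M) : Legal Ax' Ru' (Tm.map f M) := by
  obtain ⟨Γ, N, h | h⟩ := h
  · exact ⟨_, _, Or.inl (Typing.map f hAx hRu h)⟩
  · exact ⟨_, _, Or.inr (Typing.map f hAx hRu h)⟩

/-- Monotonicity of typing in the specification. -/
theorem Typing.mono {Ax Ax' : S → S → Prop} {Ru Ru' : S → S → S → Prop}
    (hAx : ∀ a b, Ax a b → Ax' a b) (hRu : ∀ a b c, Ru a b c → Ru' a b c)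
    {Γ : List (Tm S)} {M N : Tm S} (h : Typing Ax Ru Γ M N) : Typing Ax' Ru' Γ M N := by
  induction h with
  | ax h => exact Typing.ax (hAx _ _ h)
  | var _ ih => exact Typing.var ih
  | weak _ _ ih₁ ih₂ => exact Typing.weak ih₁ ih₂
  | prod hr _ _ ih₁ ih₂ => exact Typing.prod (hRu _ _ _ hr) ih₁ ih₂
  | abs _ _ ih₁ ih₂ => exact Typing.abs ih₁ ih₂
  | app _ _ ih₁ ih₂ => exact Typing.app ih₁ ih₂
  | conv _ _ hc ih₁ ih₂ => exact Typing.conv ih₁ ih₂ hc

theorem Legal.mono {Ax Ax' : S → S → Prop} {Ru Ru' : S → S → S → Prop}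
    (hAx : ∀ a b, Ax a b → Ax' a b) (hRu : ∀ a b c, Ru a b c → Ru' a b c)
    {M : Tm S} (h : Legal Ax Ru M) : Legal Ax' Ru' M := by
  obtain ⟨Γ, N, h | h⟩ := h
  · exact ⟨_, _, Or.inl (Typing.mono hAx hRu h)⟩
  · exact ⟨_, _, Or.inr (Typing.mono hAx hRu h)⟩

/-- Every derivation uses only finitely many axioms and rules. -/
theorem Typing.finite_support {Ax : S → S → Prop} {Ru : S → S → S → Prop}
    {Γ : List (Tm S)} {M N : Tm S} (h : Typing Ax Ru Γ M N) :
    ∃ (a : Finset (S × S)) (r : Finset (S × S × S)),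
      (∀ p ∈ a, Ax p.1 p.2) ∧ (∀ p ∈ r, Ru p.1 p.2.1 p.2.2) ∧
      Typing (fun x y => (x, y) ∈ a) (fun x y z => (x, y, z) ∈ r) Γ M N := by
  classical
  induction h with
  | @ax s₁ s₂ h =>
    refine ⟨{(s₁, s₂)}, ∅, ?_, ?_, ?_⟩
    · intro p hp
      rw [Finset.mem_singleton] at hp
      subst hp
      exact h
    · intro p hp
      simp at hp
    · exact Typing.ax (by simp)
  | var _ ih =>
    obtain ⟨a, r, ha, hr, ht⟩ := ih
    exact ⟨a, r, ha, hr, Typing.var ht⟩
  | weak _ _ ih₁ ih₂ =>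
    obtain ⟨a₁, r₁, ha₁, hr₁, ht₁⟩ := ih₁
    obtain ⟨a₂, r₂, ha₂, hr₂, ht₂⟩ := ih₂
    refine ⟨a₁ ∪ a₂, r₁ ∪ r₂, ?_, ?_, ?_⟩
    · intro p hp
      rcases Finset.mem_union.1 hp with hp | hp
      · exact ha₁ p hp
      · exact ha₂ p hp
    · intro p hp
      rcases Finset.mem_union.1 hp with hp | hp
      · exact hr₁ p hp
      · exact hr₂ p hp
    · exact Typing.weak
        (Typing.mono (fun _ _ h => Finset.mem_union_left _ h)
          (fun _ _ _ h => Finset.mem_union_left _ h) ht₁)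
        (Typing.mono (fun _ _ h => Finset.mem_union_right _ h)
          (fun _ _ _ h => Finset.mem_union_right _ h) ht₂)
  | @prod Γ A B s₁ s₂ s₃ hru _ _ ih₁ ih₂ =>
    obtain ⟨a₁, r₁, ha₁, hr₁, ht₁⟩ := ih₁
    obtain ⟨a₂, r₂, ha₂, hr₂, ht₂⟩ := ih₂
    refine ⟨a₁ ∪ a₂, insert (s₁, s₂, s₃) (r₁ ∪ r₂), ?_, ?_, ?_⟩
    · intro p hp
      rcases Finset.mem_union.1 hp with hp | hp
      · exact ha₁ p hp
      · exact ha₂ p hp
    · intro p hp
      rcases Finset.mem_insert.1 hp with hp | hp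
      · subst hp
        exact hru
      · rcases Finset.mem_union.1 hp with hp | hp
        · exact hr₁ p hp
        · exact hr₂ p hp
    · exact Typing.prod (Finset.mem_insert_self _ _)
        (Typing.mono (fun _ _ h => Finset.mem_union_left _ h)
          (fun _ _ _ h => Finset.mem_insert_of_mem (Finset.mem_union_left _ h)) ht₁)
        (Typing.mono (fun _ _ h => Finset.mem_union_right _ h)
          (fun _ _ _ h => Finset.mem_insert_of_mem (Finset.mem_union_right _ h)) ht₂)
  | abs _ _ ih₁ ih₂ =>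
    obtain ⟨a₁, r₁, ha₁, hr₁, ht₁⟩ := ih₁
    obtain ⟨a₂, r₂, ha₂, hr₂, ht₂⟩ := ih₂
    refine ⟨a₁ ∪ a₂, r₁ ∪ r₂, ?_, ?_, ?_⟩
    · intro p hp
      rcases Finset.mem_union.1 hp with hp | hp
      · exact ha₁ p hp
      · exact ha₂ p hp
    · intro p hp
      rcases Finset.mem_union.1 hp with hp | hp
      · exact hr₁ p hp
      · exact hr₂ p hp
    · exact Typing.abs
        (Typing.mono (fun _ _ h => Finset.mem_union_left _ h)
          (fun _ _ _ h => Finset.mem_union_left _ h) ht₁)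
        (Typing.mono (fun _ _ h => Finset.mem_union_right _ h)
          (fun _ _ _ h => Finset.mem_union_right _ h) ht₂)
  | app _ _ ih₁ ih₂ =>
    obtain ⟨a₁, r₁, ha₁, hr₁, ht₁⟩ := ih₁
    obtain ⟨a₂, r₂, ha₂, hr₂, ht₂⟩ := ih₂
    refine ⟨a₁ ∪ a₂, r₁ ∪ r₂, ?_, ?_, ?_⟩
    · intro p hp
      rcases Finset.mem_union.1 hp with hp | hp
      · exact ha₁ p hp
      · exact ha₂ p hp
    · intro p hp
      rcases Finset.mem_union.1 hp with hp | hp
      · exact hr₁ p hp
      · exact hr₂ p hp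
    · exact Typing.app
        (Typing.mono (fun _ _ h => Finset.mem_union_left _ h)
          (fun _ _ _ h => Finset.mem_union_left _ h) ht₁)
        (Typing.mono (fun _ _ h => Finset.mem_union_right _ h)
          (fun _ _ _ h => Finset.mem_union_right _ h) ht₂)
  | conv _ _ hc ih₁ ih₂ =>
    obtain ⟨a₁, r₁, ha₁, hr₁, ht₁⟩ := ih₁
    obtain ⟨a₂, r₂, ha₂, hr₂, ht₂⟩ := ih₂
    refine ⟨a₁ ∪ a₂, r₁ ∪ r₂, ?_, ?_, ?_⟩
    · intro p hp
      rcases Finset.mem_union.1 hp with hp | hp
      · exact ha₁ p hp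
      · exact ha₂ p hp
    · intro p hp
      rcases Finset.mem_union.1 hp with hp | hp
      · exact hr₁ p hp
      · exact hr₂ p hp
    · exact Typing.conv
        (Typing.mono (fun _ _ h => Finset.mem_union_left _ h)
          (fun _ _ _ h => Finset.mem_union_left _ h) ht₁)
        (Typing.mono (fun _ _ h => Finset.mem_union_right _ h)
          (fun _ _ _ h => Finset.mem_union_right _ h) ht₂) hc

end Vale.Agent.Lib.P340
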