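import Vale.Agent.Lib.P340.Red

/-!
# Confluence of beta reduction (Church-Rosser) via parallel reduction

Parallel reduction `Par`, its complete development `cd`, the triangle property, confluence of
many-step reduction, common reducts of convertible terms, and inversion corollaries.
-/

namespace Vale.Agent.Lib.P340

universe u

variable {S : Type u}

/-- Parallel reduction: contract any set of redexes present in a term simultaneously. -/
inductive Par : Tm S → Tm S → Prop
  | var (n : ℕ) : Par (Tm.var n) (Tm.var n)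
  | sort (s : S) : Par (Tm.sort s) (Tm.sort s)
  | app {M M' N N' : Tm S} : Par M M' → Par N N' → Par (Tm.app M N) (Tm.app M' N')
  | lam {A A' M M' : Tm S} : Par A A' → Par M M' → Par (Tm.lam A M) (Tm.lam A' M')
  | pi {A A' B B' : Tm S} : Par A A' → Par B B' → Par (Tm.pi A B) (Tm.pi A' B')
  | beta (A : Tm S) {M M' N N' : Tm S} : Par M M' → Par N N' →
      Par (Tm.app (Tm.lam A M) N) (subst 0 N' M')

theorem Par.refl (M : Tm S) : Par M M := by
  induction M with
  | var n => exact Par.var n
  | sort s => exact Par.sort s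
  | app M N ihM ihN => exact Par.app ihM ihN
  | lam A M ihA ihM => exact Par.lam ihA ihM
  | pi A B ihA ihB => exact Par.pi ihA ihB

theorem Step.par {M N : Tm S} (h : Step M N) : Par M N := by
  induction h with
  | beta A M N => exact Par.beta A (Par.refl M) (Par.refl N)
  | appL N _ ih => exact Par.app ih (Par.refl N)
  | appR M _ ih => exact Par.app (Par.refl M) ih
  | lamL M _ ih => exact Par.lam ih (Par.refl M)
  | lamR A _ ih => exact Par.lam (Par.refl A) ih
  | piL B _ ih => exact Par.pi ih (Par.refl B)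
  | piR A _ ih => exact Par.pi (Par.refl A) ih

theorem Par.red {M N : Tm S} (h : Par M N) : Red M N := by
  induction h with
  | var n => exact Relation.ReflTransGen.refl
  | sort s => exact Relation.ReflTransGen.refl
  | app _ _ ihM ihN => exact Red.app ihM ihN
  | lam _ _ ihA ihM => exact Red.lam ihA ihM
  | pi _ _ ihA ihB => exact Red.pi ihA ihB
  | beta A _ _ ihM ihN =>
    exact (Red.app (Red.lamR A ihM) ihN).tail (Step.beta _ _ _)

theorem Par.lift {M M' : Tm S} (h : Par M M') :
    ∀ c : ℕ, Par (Vale.Agent.Lib.P340.lift c M) (Vale.Agent.Lib.P340.lift c M') := by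
  induction h with
  | var n => intro c; exact Par.refl _
  | sort s => intro c; exact Par.sort s
  | app _ _ ihM ihN => intro c; exact Par.app (ihM c) (ihN c)
  | lam _ _ ihA ihM => intro c; exact Par.lam (ihA c) (ihM (c + 1))
  | pi _ _ ihA ihB => intro c; exact Par.pi (ihA c) (ihB (c + 1))
  | @beta A M M' N N' _ _ ihM ihN =>
    intro c
    rw [lift_subst M' 0 c N' (Nat.zero_le c)]
    exact Par.beta _ (ihM (c + 1)) (ihN c)

theorem Par.subst {M M' : Tm S} (h : Par M M') :
    ∀ (k : ℕ) {N N' : Tm S}, Par N N' →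
      Par (Vale.Agent.Lib.P340.subst k N M) (Vale.Agent.Lib.P340.subst k N' M') := by
  induction h with
  | var n =>
    intro k N N' hN
    simp only [subst_var]
    split_ifs
    · exact Par.var n
    · exact hN
    · exact Par.var _
  | sort s => intro k N N' hN; exact Par.sort s
  | app _ _ ihM ihN => intro k N N' hN; exact Par.app (ihM k hN) (ihN k hN)
  | lam _ _ ihA ihM => intro k N N' hN; exact Par.lam (ihA k hN) (ihM (k + 1) (hN.lift 0))
  | pi _ _ ihA ihB => intro k N N' hN; exact Par.pi (ihA k hN) (ihB (k + 1) (hN.lift 0))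
  | @beta A M M' P P' _ _ ihM ihP =>
    intro k N N' hN
    rw [subst_subst M' 0 k N' P' (Nat.zero_le k)]
    exact Par.beta _ (ihM (k + 1) (hN.lift 0)) (ihP k hN)

/-- Complete development: contract all redexes present in a term. -/
def cd : Tm S → Tm S
  | .var n => .var n
  | .sort s => .sort s
  | .app (.lam _ M) N => subst 0 (cd N) (cd M)
  | .app (.var n) N => .app (.var n) (cd N)
  | .app (.sort s) N => .app (.sort s) (cd N)
  | .app (.app M₁ M₂) N => .app (cd (.app M₁ M₂)) (cd N)
  | .app (.pi A B) N => .app (.pi (cd A) (cd B)) (cd N)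
  | .lam A M => .lam (cd A) (cd M)
  | .pi A B => .pi (cd A) (cd B)

theorem cd_app_lam (A M N : Tm S) : cd (Tm.app (Tm.lam A M) N) = subst 0 (cd N) (cd M) := by
  simp only [cd]

theorem cd_lam (A M : Tm S) : cd (Tm.lam A M) = Tm.lam (cd A) (cd M) := by
  simp only [cd]

theorem cd_pi (A B : Tm S) : cd (Tm.pi A B) = Tm.pi (cd A) (cd B) := by
  simp only [cd]

theorem cd_app_of_not_lam {M : Tm S} (N : Tm S) (h : ∀ A M₀, M ≠ Tm.lam A M₀) :
    cd (Tm.app M N) = Tm.app (cd M) (cd N) := by
  cases M with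
  | var n => simp only [cd]
  | sort s => simp only [cd]
  | app M₁ M₂ => simp only [cd]
  | lam A M₀ => exact absurd rfl (h A M₀)
  | pi A B => simp only [cd]

/-- The triangle property of the complete development. -/
theorem Par.triangle {M M' : Tm S} (h : Par M M') : Par M' (cd M) := by
  induction h with
  | var n => simp only [cd]; exact Par.var n
  | sort s => simp only [cd]; exact Par.sort s
  | @app M M' N N' hM hN ihM ihN =>
    by_cases hlam : ∃ A M₀, M = Tm.lam A M₀
    · obtain ⟨A, M₀, rfl⟩ := hlam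
      rw [cd_app_lam]
      rw [cd_lam] at ihM
      cases hM with
      | lam hA hM₀ =>
        cases ihM with
        | lam ihA ihM₀ => exact Par.beta _ ihM₀ ihN
    · rw [cd_app_of_not_lam N (fun A M₀ hh => hlam ⟨A, M₀, hh⟩)]
      exact Par.app ihM ihN
  | lam _ _ ihA ihM => rw [cd_lam]; exact Par.lam ihA ihM
  | pi _ _ ihA ihB => rw [cd_pi]; exact Par.pi ihA ihB
  | beta A _ _ ihM ihN =>
    rw [cd_app_lam]
    exact ihM.subst 0 ihN

theorem par_diamond {M N₁ N₂ : Tm S} (h₁ : Par M N₁) (h₂ : Par M N₂) :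
    ∃ P, Par N₁ P ∧ Par N₂ P :=
  ⟨cd M, h₁.triangle, h₂.triangle⟩

theorem red_of_reflTransGen_par {M N : Tm S} (h : Relation.ReflTransGen Par M N) : Red M N := by
  induction h with
  | refl => exact Relation.ReflTransGen.refl
  | tail _ h2 ih => exact ih.trans h2.red

theorem reflTransGen_par_of_red {M N : Tm S} (h : Red M N) : Relation.ReflTransGen Par M N := by
  induction h with
  | refl => exact Relation.ReflTransGen.refl
  | tail _ h2 ih => exact ih.tail h2.par

/-- Confluence of beta reduction. -/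
theorem red_confluent {M N₁ N₂ : Tm S} (h₁ : Red M N₁) (h₂ : Red M N₂) :
    ∃ P, Red N₁ P ∧ Red N₂ P := by
  obtain ⟨P, hP₁, hP₂⟩ := Relation.church_rosser
    (fun a b c hab hac => by
      obtain ⟨d, hbd, hcd⟩ := par_diamond hab hac
      exact ⟨d, Relation.ReflGen.single hbd, Relation.ReflTransGen.single hcd⟩)
    (reflTransGen_par_of_red h₁) (reflTransGen_par_of_red h₂)
  exact ⟨P, red_of_reflTransGen_par hP₁, red_of_reflTransGen_par hP₂⟩

/-- Convertible terms have a common reduct. -/
theorem conv_common_reduct {M N : Tm S} (h : Conv M N) : ∃ P, Red M P ∧ Red N P := by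
  induction h with
  | rel a b h => exact ⟨b, Relation.ReflTransGen.single h, Relation.ReflTransGen.refl⟩
  | refl a => exact ⟨a, Relation.ReflTransGen.refl, Relation.ReflTransGen.refl⟩
  | symm a b _ ih =>
    obtain ⟨P, h1, h2⟩ := ih
    exact ⟨P, h2, h1⟩
  | trans a b c _ _ ih1 ih2 =>
    obtain ⟨P₁, h1, h2⟩ := ih1
    obtain ⟨P₂, h3, h4⟩ := ih2
    obtain ⟨Q, h5, h6⟩ := red_confluent h2 h3
    exact ⟨Q, h1.trans h5, h4.trans h6⟩

theorem red_sort_inv {s : S} {X : Tm S} (h : Red (Tm.sort s) X) : X = Tm.sort s := by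
  induction h with
  | refl => rfl
  | tail _ h2 ih =>
    subst ih
    cases h2

theorem red_var_inv {n : ℕ} {X : Tm S} (h : Red (Tm.var n) X) : X = Tm.var n := by
  induction h with
  | refl => rfl
  | tail _ h2 ih =>
    subst ih
    cases h2

theorem red_pi_inv {A B X : Tm S} (h : Red (Tm.pi A B) X) :
    ∃ A' B', X = Tm.pi A' B' ∧ Red A A' ∧ Red B B' := by
  induction h with
  | refl => exact ⟨A, B, rfl, Relation.ReflTransGen.refl, Relation.ReflTransGen.refl⟩
  | tail _ h2 ih =>
    obtain ⟨A', B', rfl, hA, hB⟩ := ih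
    cases h2 with
    | piL _ hs => exact ⟨_, B', rfl, hA.tail hs, hB⟩
    | piR _ hs => exact ⟨A', _, rfl, hA, hB.tail hs⟩

theorem red_lam_inv {A M X : Tm S} (h : Red (Tm.lam A M) X) :
    ∃ A' M', X = Tm.lam A' M' ∧ Red A A' ∧ Red M M' := by
  induction h with
  | refl => exact ⟨A, M, rfl, Relation.ReflTransGen.refl, Relation.ReflTransGen.refl⟩
  | tail _ h2 ih =>
    obtain ⟨A', M', rfl, hA, hM⟩ := ih
    cases h2 with
    | lamL _ hs => exact ⟨_, M', rfl, hA.tail hs, hM⟩
    | lamR _ hs => exact ⟨A', _, rfl, hA, hM.tail hs⟩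

theorem conv_sort_sort {s s' : S} (h : Conv (Tm.sort s) (Tm.sort s')) : s = s' := by
  obtain ⟨P, h1, h2⟩ := conv_common_reduct h
  have e1 := red_sort_inv h1
  have e2 := red_sort_inv h2
  rw [e1] at e2
  injection e2

theorem not_conv_sort_pi {s : S} {A B : Tm S} : ¬ Conv (Tm.sort s) (Tm.pi A B) := by
  intro h
  obtain ⟨P, h1, h2⟩ := conv_common_reduct h
  have e1 := red_sort_inv h1
  obtain ⟨A', B', e2, -, -⟩ := red_pi_inv h2
  rw [e1] at e2
  cases e2

theorem conv_pi_inj {A B A' B' : Tm S} (h : Conv (Tm.pi A B) (Tm.pi A' B')) :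
    Conv A A' ∧ Conv B B' := by
  obtain ⟨P, h1, h2⟩ := conv_common_reduct h
  obtain ⟨A₁, B₁, e1, hA₁, hB₁⟩ := red_pi_inv h1
  obtain ⟨A₂, B₂, e2, hA₂, hB₂⟩ := red_pi_inv h2
  rw [e1] at e2
  injection e2 with eA eB
  subst eA eB
  exact ⟨(Conv.of_red hA₁).trans (Conv.of_red hA₂).symm,
    (Conv.of_red hB₁).trans (Conv.of_red hB₂).symm⟩

end Vale.Agent.Lib.P340
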