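import Mathlib

/-!
# Pure type systems (de Bruijn presentation)

Pseudo-terms over a type `S` of sorts, one-step beta reduction (compatible closure, including
reduction inside the domains of abstractions and products), beta conversion, the seven typing
rules of a pure type system with axioms `Ax` and rules `Ru`, legal terms, weak and strong
normalization.
-/

namespace Vale.Agent.Lib.P340

universe u v

/-- Pseudo-terms with de Bruijn indices: variables, sorts, application `M N`,
abstraction `lam A M` (domain `A`, body `M` binding index `0`) and product `pi A B`. -/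
inductive Tm (S : Type u) : Type u
  | var : ℕ → Tm S
  | sort : S → Tm S
  | app : Tm S → Tm S → Tm S
  | lam : Tm S → Tm S → Tm S
  | pi : Tm S → Tm S → Tm S

variable {S : Type u} {T : Type v}

/-- Shift by one all free indices `≥ c`. -/
def lift (c : ℕ) : Tm S → Tm S
  | .var n => if n < c then .var n else .var (n + 1)
  | .sort s => .sort s
  | .app M N => .app (lift c M) (lift c N)
  | .lam A M => .lam (lift c A) (lift (c + 1) M)
  | .pi A B => .pi (lift c A) (lift (c + 1) B)

/-- `subst k N M` is `M[k := N]`: replace index `k` by `N` and lower the indices above `k`. -/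
def subst (k : ℕ) (N : Tm S) : Tm S → Tm S
  | .var n => if n < k then .var n else if n = k then N else .var (n - 1)
  | .sort s => .sort s
  | .app M P => .app (subst k N M) (subst k N P)
  | .lam A M => .lam (subst k N A) (subst (k + 1) (lift 0 N) M)
  | .pi A B => .pi (subst k N A) (subst (k + 1) (lift 0 N) B)

/-- One-step beta reduction: the compatible closure of `(lam A M) N ⟶ M[0 := N]`. -/
inductive Step : Tm S → Tm S → Prop
  | beta (A M N : Tm S) : Step (.app (.lam A M) N) (subst 0 N M)
  | appL {M M' : Tm S} (N : Tm S) : Step M M' → Step (.app M N) (.app M' N)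
  | appR (M : Tm S) {N N' : Tm S} : Step N N' → Step (.app M N) (.app M N')
  | lamL {A A' : Tm S} (M : Tm S) : Step A A' → Step (.lam A M) (.lam A' M)
  | lamR (A : Tm S) {M M' : Tm S} : Step M M' → Step (.lam A M) (.lam A M')
  | piL {A A' : Tm S} (B : Tm S) : Step A A' → Step (.pi A B) (.pi A' B)
  | piR (A : Tm S) {B B' : Tm S} : Step B B' → Step (.pi A B) (.pi A B')

/-- Beta conversion: the equivalence relation generated by `Step`. -/
def Conv (M N : Tm S) : Prop := Relation.EqvGen Step M N

/-- The typing relation `Γ ⊢ M : B` of the pure type system with axioms `Ax` and rules `Ru`.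
A context is a list of types, the head being the type of index `0`. -/
inductive Typing (Ax : S → S → Prop) (Ru : S → S → S → Prop) :
    List (Tm S) → Tm S → Tm S → Prop
  | ax {s₁ s₂ : S} : Ax s₁ s₂ → Typing Ax Ru [] (.sort s₁) (.sort s₂)
  | var {Γ : List (Tm S)} {A : Tm S} {s : S} :
      Typing Ax Ru Γ A (.sort s) → Typing Ax Ru (A :: Γ) (.var 0) (lift 0 A)
  | weak {Γ : List (Tm S)} {M B A : Tm S} {s : S} :
      Typing Ax Ru Γ M B → Typing Ax Ru Γ A (.sort s) →
      Typing Ax Ru (A :: Γ) (lift 0 M) (lift 0 B)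
  | prod {Γ : List (Tm S)} {A B : Tm S} {s₁ s₂ s₃ : S} :
      Ru s₁ s₂ s₃ → Typing Ax Ru Γ A (.sort s₁) → Typing Ax Ru (A :: Γ) B (.sort s₂) →
      Typing Ax Ru Γ (.pi A B) (.sort s₃)
  | abs {Γ : List (Tm S)} {A M B : Tm S} {s : S} :
      Typing Ax Ru (A :: Γ) M B → Typing Ax Ru Γ (.pi A B) (.sort s) →
      Typing Ax Ru Γ (.lam A M) (.pi A B)
  | app {Γ : List (Tm S)} {M N A B : Tm S} :
      Typing Ax Ru Γ M (.pi A B) → Typing Ax Ru Γ N A →
      Typing Ax Ru Γ (.app M N) (subst 0 N B)
  | conv {Γ : List (Tm S)} {M A B : Tm S} {s : S} :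
      Typing Ax Ru Γ M A → Typing Ax Ru Γ B (.sort s) → Conv A B →
      Typing Ax Ru Γ M B

/-- A term is legal if it is the subject or the type of a derivable judgment. -/
def Legal (Ax : S → S → Prop) (Ru : S → S → S → Prop) (M : Tm S) : Prop :=
  ∃ (Γ : List (Tm S)) (N : Tm S), Typing Ax Ru Γ M N ∨ Typing Ax Ru Γ N M

/-- `M` reduces to a beta-normal form. -/
def HasNormalForm (M : Tm S) : Prop :=
  ∃ N : Tm S, Relation.ReflTransGen Step M N ∧ ∀ N' : Tm S, ¬ Step N N'

/-- There is an infinite beta-reduction sequence starting at `M`. -/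
def HasInfiniteReduction (M : Tm S) : Prop :=
  ∃ f : ℕ → Tm S, f 0 = M ∧ ∀ n : ℕ, Step (f n) (f (n + 1))

/-- The pure type system `(S, Ax, Ru)` is weakly normalizing. -/
def WeaklyNormalizing (Ax : S → S → Prop) (Ru : S → S → S → Prop) : Prop :=
  ∀ M : Tm S, Legal Ax Ru M → HasNormalForm M

/-- The pure type system `(S, Ax, Ru)` is strongly normalizing. -/
def StronglyNormalizing (Ax : S → S → Prop) (Ru : S → S → S → Prop) : Prop :=
  ∀ M : Tm S, Legal Ax Ru M → ¬ HasInfiniteReduction M

end Vale.Agent.Lib.P340
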