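import Vale.Agent.Lib.P340.Gen

/-!
# Size of the product skeleton

The size `sz` counts the products of a term that are reachable through the function position of
applications and the bodies of abstractions. In a first-order pure type system (every product
quantifies over a type of a base sort) this size is invariant under reduction of typable terms.
-/

namespace Vale.Agent.Lib.P340

universe u

variable {S : Type u} {Ax : S → S → Prop} {Ru : S → S → S → Prop}

/-- Size of the product skeleton of a term. -/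
def sz : Tm S → ℕ
  | .var _ => 0
  | .sort _ => 0
  | .app M _ => sz M
  | .lam _ M => sz M
  | .pi A B => sz A + sz B + 1

theorem sz_lift (M : Tm S) : ∀ c : ℕ, sz (lift c M) = sz M := by
  induction M with
  | var n =>
    intro c
    rw [lift_var]
    split_ifs <;> rfl
  | sort s => intro c; rfl
  | app M N ihM _ =>
    intro c
    simp only [lift_app, sz, ihM c]
  | lam A M _ ihM =>
    intro c
    simp only [lift_lam, sz, ihM (c + 1)]
  | pi A B ihA ihB =>
    intro c
    simp only [lift_pi, sz, ihA c, ihB (c + 1)]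

theorem sz_liftN (n : ℕ) (M : Tm S) : sz (liftN n M) = sz M := by
  induction n with
  | zero => rfl
  | succ n ih => rw [liftN_succ, sz_lift, ih]

theorem sz_subst (M : Tm S) : ∀ (k : ℕ) (Q : Tm S), sz Q = 0 → sz (subst k Q M) = sz M := by
  induction M with
  | var n =>
    intro k Q hQ
    rw [subst_var]
    split_ifs
    · rfl
    · rw [hQ]; rfl
    · rfl
  | sort s => intro k Q _; rfl
  | app M N ihM _ =>
    intro k Q hQ
    simp only [subst_app, sz, ihM k Q hQ]
  | lam A M _ ihM =>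
    intro k Q hQ
    simp only [subst_lam, sz]
    exact ihM (k + 1) (lift 0 Q) (by rw [sz_lift]; exact hQ)
  | pi A B ihA ihB =>
    intro k Q hQ
    simp only [subst_pi, sz, ihA k Q hQ, ihB (k + 1) (lift 0 Q) (by rw [sz_lift]; exact hQ)]

/-- A term whose head, through abstractions and function positions, is a product. -/
inductive PiHead : Tm S → Prop
  | pi (A B : Tm S) : PiHead (Tm.pi A B)
  | lam (A : Tm S) {M : Tm S} : PiHead M → PiHead (Tm.lam A M)
  | app {M : Tm S} (N : Tm S) : PiHead M → PiHead (Tm.app M N)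

/-- Arities: iterated products ending in a sort. -/
inductive IsAr : Tm S → Prop
  | sort (s : S) : IsAr (Tm.sort s)
  | pi (A : Tm S) {B : Tm S} : IsAr B → IsAr (Tm.pi A B)

theorem piHead_of_sz_ne_zero (M : Tm S) : sz M ≠ 0 → PiHead M := by
  induction M with
  | var n => intro h; exact absurd rfl h
  | sort s => intro h; exact absurd rfl h
  | app M N ihM _ => intro h; exact PiHead.app N (ihM h)
  | lam A M _ ihM => intro h; exact PiHead.lam A (ihM h)
  | pi A B _ _ => intro _; exact PiHead.pi A B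

theorem piHead_of_lift (M : Tm S) : ∀ c : ℕ, PiHead (lift c M) → PiHead M := by
  induction M with
  | var n =>
    intro c h
    rw [lift_var] at h
    split_ifs at h <;> cases h
  | sort s => intro c h; cases h
  | app M N ihM _ =>
    intro c h
    rw [lift_app] at h
    cases h with
    | app _ h' => exact PiHead.app N (ihM c h')
  | lam A M _ ihM =>
    intro c h
    rw [lift_lam] at h
    cases h with
    | lam _ h' => exact PiHead.lam A (ihM (c + 1) h')
  | pi A B _ _ => intro _ _; exact PiHead.pi A B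

theorem IsAr.lift {T : Tm S} (h : IsAr T) : ∀ c : ℕ, IsAr (lift c T) := by
  induction h with
  | sort s => intro c; exact IsAr.sort s
  | pi A _ ih =>
    intro c
    rw [lift_pi]
    exact IsAr.pi _ (ih (c + 1))

theorem IsAr.subst {T : Tm S} (h : IsAr T) : ∀ (k : ℕ) (N : Tm S), IsAr (subst k N T) := by
  induction h with
  | sort s => intro k N; exact IsAr.sort s
  | pi A _ ih =>
    intro k N
    rw [subst_pi]
    exact IsAr.pi _ (ih (k + 1) (Vale.Agent.Lib.P340.lift 0 N))

theorem IsAr.step {T : Tm S} (h : IsAr T) : ∀ {T' : Tm S}, Step T T' → IsAr T' := by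
  induction h with
  | sort s => intro T' hs; cases hs
  | pi A hB ih =>
    intro T' hs
    cases hs with
    | piL _ _ => exact IsAr.pi _ hB
    | piR _ hs' => exact IsAr.pi _ (ih hs')

theorem IsAr.red {T T' : Tm S} (h : IsAr T) (hr : Red T T') : IsAr T' := by
  induction hr with
  | refl => exact h
  | tail _ hs ih => exact ih.step hs

/-- The type of a term with a product head reduces to an arity. -/
theorem Typing.arity_of_piHead {Γ : List (Tm S)} {M T : Tm S} (h : Typing Ax Ru Γ M T) :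
    PiHead M → ∃ T', Red T T' ∧ IsAr T' := by
  induction h with
  | ax _ => intro hp; cases hp
  | var _ _ => intro hp; cases hp
  | weak _ _ ih₁ _ =>
    intro hp
    obtain ⟨T', hr, ha⟩ := ih₁ (piHead_of_lift _ 0 hp)
    exact ⟨_, hr.lift 0, ha.lift 0⟩
  | prod _ _ _ _ _ =>
    intro _
    exact ⟨_, Relation.ReflTransGen.refl, IsAr.sort _⟩
  | abs _ _ ih₁ _ =>
    intro hp
    cases hp with
    | lam _ hp' =>
      obtain ⟨B', hr, ha⟩ := ih₁ hp'
      exact ⟨_, Red.piR _ hr, IsAr.pi _ ha⟩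
  | @app Γ₀ M₁ N₁ A₁ B₁ _ _ ih₁ _ =>
    intro hp
    cases hp with
    | app _ hp' =>
      obtain ⟨T', hr, ha⟩ := ih₁ hp'
      obtain ⟨A', B', rfl, _, hB⟩ := red_pi_inv hr
      cases ha with
      | pi _ haB => exact ⟨_, hB.subst 0 N₁, haB.subst 0 N₁⟩
  | conv _ _ hc ih₁ _ =>
    intro hp
    obtain ⟨T', hr, ha⟩ := ih₁ hp
    obtain ⟨P, h1, h2⟩ := conv_common_reduct ((Conv.of_red hr).symm.trans hc)
    exact ⟨P, h2, ha.red h1⟩

/-- An arity is never typed by a base sort. -/
theorem IsAr.not_base {B : S → Prop}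
    (h2 : ∀ s₁ s₂ s₃, Ru s₁ s₂ s₃ → B s₃ → B s₂) (h3 : ∀ s s', Ax s s' → ¬ B s')
    {T : Tm S} (h : IsAr T) :
    ∀ (Γ : List (Tm S)) (s : S), Typing Ax Ru Γ T (Tm.sort s) → B s → False := by
  induction h with
  | sort t =>
    intro Γ s hT hs
    obtain ⟨s', hax, hc⟩ := Typing.gen_sort hT
    have e := conv_sort_sort hc
    subst e
    exact h3 t s hax hs
  | pi A _ ih =>
    intro Γ s hT hs
    obtain ⟨s₁, s₂, s₃, hR, _, hB, hc⟩ := Typing.gen_pi hT
    have e := conv_sort_sort hc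
    subst e
    exact ih (A :: Γ) s₂ hB (h2 s₁ s₂ s hR hs)

theorem sz_eq_zero_of_base {B : S → Prop}
    (h2 : ∀ s₁ s₂ s₃, Ru s₁ s₂ s₃ → B s₃ → B s₂) (h3 : ∀ s s', Ax s s' → ¬ B s')
    {Γ : List (Tm S)} {N T T₀ : Tm S} {s : S} (hN : Typing Ax Ru Γ N T) (hc : Conv T T₀)
    (hT₀ : Typing Ax Ru Γ T₀ (Tm.sort s)) (hs : B s) : sz N = 0 := by
  by_contra hne
  obtain ⟨T', hr, ha⟩ := hN.arity_of_piHead (piHead_of_sz_ne_zero N hne)
  obtain ⟨P, h1, h2'⟩ := conv_common_reduct (hc.symm.trans (Conv.of_red hr))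
  exact (ha.red h2').not_base h2 h3 Γ s (hT₀.red h1) hs

theorem sz_step {B : S → Prop} (h1 : ∀ s₁ s₂ s₃, Ru s₁ s₂ s₃ → B s₁)
    (h2 : ∀ s₁ s₂ s₃, Ru s₁ s₂ s₃ → B s₃ → B s₂) (h3 : ∀ s s', Ax s s' → ¬ B s')
    {M M' : Tm S} (hs : Step M M') :
    ∀ {Γ : List (Tm S)} {T : Tm S}, Typing Ax Ru Γ M T → sz M' = sz M := by
  induction hs with
  | beta A P Q =>
    intro Γ T hT
    obtain ⟨C, D, hlam, hQ, _⟩ := Typing.gen_app hT
    obtain ⟨D', s, _, hpi, hc⟩ := Typing.gen_lam hlam
    obtain ⟨hcA, _⟩ := conv_pi_inj hc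
    obtain ⟨s₁, s₂, s₃, hR, hA, _, _⟩ := Typing.gen_pi hpi
    have hQ0 : sz Q = 0 := sz_eq_zero_of_base h2 h3 hQ hcA hA (h1 s₁ s₂ s₃ hR)
    rw [sz_subst P 0 Q hQ0]
    rfl
  | appL N _ ih =>
    intro Γ T hT
    obtain ⟨C, D, hM, _, _⟩ := Typing.gen_app hT
    simp only [sz]
    exact ih hM
  | appR M _ _ => intro Γ T _; rfl
  | lamL M _ _ => intro Γ T _; rfl
  | lamR A _ ih =>
    intro Γ T hT
    obtain ⟨D, s, hM, _, _⟩ := Typing.gen_lam hT
    simp only [sz]
    exact ih hM
  | piL B₀ _ ih =>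
    intro Γ T hT
    obtain ⟨s₁, s₂, s₃, _, hA, _, _⟩ := Typing.gen_pi hT
    simp only [sz, ih hA]
  | piR A _ ih =>
    intro Γ T hT
    obtain ⟨s₁, s₂, s₃, _, _, hB, _⟩ := Typing.gen_pi hT
    simp only [sz, ih hB]

theorem sz_red {B : S → Prop} (h1 : ∀ s₁ s₂ s₃, Ru s₁ s₂ s₃ → B s₁)
    (h2 : ∀ s₁ s₂ s₃, Ru s₁ s₂ s₃ → B s₃ → B s₂) (h3 : ∀ s s', Ax s s' → ¬ B s')
    {Γ : List (Tm S)} {M M' T : Tm S} (h : Typing Ax Ru Γ M T) (hr : Red M M') : sz M' = sz M := by
  induction hr with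
  | refl => rfl
  | tail hr' hs ih =>
    rw [sz_step h1 h2 h3 hs (h.red hr'), ih]

end Vale.Agent.Lib.P340
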