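import Vale.Agent.Lib.P340.Strat
import Vale.Agent.Lib.P340.Size

/-!
# Strong normalisation of first-order pure type systems

Let `B` be a set of *base sorts* such that (1) the first sort of every rule is a base sort (every
product quantifies over a type living in a base sort), (2) if the sort of a product is a base
sort then so is the sort of its codomain, and (3) no sort is typed by a base sort.  Then every
typable term is strongly normalising.  The proof is a hereditary substitution argument by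
induction on the size of the product skeleton of the type of the substituted variable; this size
is invariant under reduction of legal terms because the argument of every legal redex is a term
of a type living in a base sort, and such terms have size zero.
-/

namespace Vale.Agent.Lib.P340

universe u

variable {S : Type u} {Ax : S → S → Prop} {Ru : S → S → S → Prop}

/-- Substitution property at size `n` (for variables whose type lives in a base sort). -/
def SubPropB (Ax : S → S → Prop) (Ru : S → S → S → Prop) (B : S → Prop) (n : ℕ) : Prop :=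
  ∀ (b : Bool) (M : Tm S), SNI b M → ∀ (Δ Γ : List (Tm S)) (A N₀ T : Tm S) (s : S),
    Typing Ax Ru (Δ ++ A :: Γ) M T → Typing Ax Ru Γ N₀ A → Typing Ax Ru Γ A (Tm.sort s) →
    B s → sz A ≤ n → SNI false N₀ →
    SNI false (subst Δ.length (liftN Δ.length N₀) M) ∧
    (b = true → SNI true (subst Δ.length (liftN Δ.length N₀) M) ∨
      ∃ (U : Tm S) (s' : S), Conv (subst Δ.length (liftN Δ.length N₀) T) U ∧
        Typing Ax Ru (substCtx N₀ Δ ++ Γ) U (Tm.sort s') ∧ B s' ∧ sz U ≤ n)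

/-- Application property at size `n` (for functions whose product type lives in a base sort). -/
def AppPropB (Ax : S → S → Prop) (Ru : S → S → S → Prop) (B : S → Prop) (n : ℕ) : Prop :=
  ∀ (b : Bool) (P : Tm S), SNI b P → ∀ (Γ : List (Tm S)) (C D Q : Tm S) (s : S),
    Typing Ax Ru Γ P (Tm.pi C D) → Typing Ax Ru Γ (Tm.pi C D) (Tm.sort s) → B s →
    sz (Tm.pi C D) ≤ n → SNI false Q → Typing Ax Ru Γ Q C → SNI false (Tm.app P Q)

section

variable {B : S → Prop} (h1 : ∀ s₁ s₂ s₃, Ru s₁ s₂ s₃ → B s₁)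
  (h2 : ∀ s₁ s₂ s₃, Ru s₁ s₂ s₃ → B s₃ → B s₂) (h3 : ∀ s s', Ax s s' → ¬ B s')

include h1 h2 h3

/-- Applying an abstraction: the common core of the two application lemmas. -/
theorem app_lam_of_subPropB {n : ℕ} (hsub : ∀ n' < n, SubPropB Ax Ru B n')
    {A M : Tm S} (hA : SNI false A) (hM : SNI false M)
    {Γ : List (Tm S)} {C D Q : Tm S} {s : S} (hPt : Typing Ax Ru Γ (Tm.lam A M) (Tm.pi C D))
    (hpi : Typing Ax Ru Γ (Tm.pi C D) (Tm.sort s)) (hn : sz (Tm.pi C D) ≤ n)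
    (hQ : SNI false Q) (hQt : Typing Ax Ru Γ Q C) : SNI false (Tm.app (Tm.lam A M) Q) := by
  obtain ⟨B₀, s', hMt, hpi', hc⟩ := Typing.gen_lam hPt
  obtain ⟨hcC, hcD⟩ := conv_pi_inj hc
  obtain ⟨C'', hC1, hC2⟩ := conv_common_reduct hcC
  have hred : Red (Tm.pi C D) (Tm.pi C'' D) := Red.piL D hC1
  have hpi'' : Typing Ax Ru Γ (Tm.pi C'' D) (Tm.sort s) := hpi.red hred
  obtain ⟨u₁, u₂, u₃, hR, hC''t, _, hcs⟩ := Typing.gen_pi hpi''
  have hsz : sz (Tm.pi C'' D) = sz (Tm.pi C D) := sz_red h1 h2 h3 hpi hred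
  have hlt : sz C'' < n := by
    have : sz (Tm.pi C'' D) = sz C'' + sz D + 1 := rfl
    omega
  have hQt' : Typing Ax Ru Γ Q C'' := Typing.conv hQt hC''t (Conv.of_red hC1)
  have hMt' : Typing Ax Ru (C'' :: Γ) M B₀ := Typing.ctx_conv0 (Conv.of_red hC2) hC''t hMt
  have hsn := (hsub (sz C'') hlt false M hM [] Γ C'' Q B₀ u₁ hMt' hQt' hC''t (h1 _ _ _ hR)
    le_rfl hQ).1
  exact SNI.exp (WH.beta A M Q) hA hQ hsn

theorem appPropB_of_subPropB (n : ℕ) (hsub : ∀ n' < n, SubPropB Ax Ru B n') :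
    AppPropB Ax Ru B n := by
  intro b P hP
  induction hP with
  | var k =>
    intro Γ C D Q s hPt hpi hs hn hQ hQt
    exact SNI.ne (SNI.app (SNI.var k) hQ)
  | app hM hN _ _ =>
    intro Γ C D Q s hPt hpi hs hn hQ hQt
    exact SNI.ne (SNI.app (SNI.app hM hN) hQ)
  | ne _ ih => exact ih
  | sort s₀ =>
    intro Γ C D Q s hPt hpi hs hn hQ hQt
    obtain ⟨s', _, hc⟩ := Typing.gen_sort hPt
    exact absurd hc.symm not_conv_sort_pi
  | pi hA hB _ _ =>
    intro Γ C D Q s hPt hpi hs hn hQ hQt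
    obtain ⟨_, _, s₃, _, _, _, hc⟩ := Typing.gen_pi hPt
    exact absurd hc.symm not_conv_sort_pi
  | @lam A M hA hM _ _ =>
    intro Γ C D Q s hPt hpi hs hn hQ hQt
    exact app_lam_of_subPropB h1 h2 h3 hsub hA hM hPt hpi hn hQ hQt
  | @exp M M' A N hWH hA hN hM' _ _ ih =>
    intro Γ C D Q s hPt hpi hs hn hQ hQt
    exact SNI.exp (WH.app Q hWH) hA hN (ih Γ C D Q s (hPt.step hWH.step) hpi hs hn hQ hQt)

theorem subPropB_of_appPropB (n : ℕ) (happ : AppPropB Ax Ru B n) : SubPropB Ax Ru B n := by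
  intro b M hM
  induction hM with
  | var k =>
    intro Δ Γ A N₀ T s hMt hN hA hs hn hN₀
    rcases lt_trichotomy k Δ.length with hlt | heq | hgt
    · have e : subst Δ.length (liftN Δ.length N₀) (Tm.var k) = Tm.var k := by
        rw [subst_var, if_pos hlt]
      rw [e]
      exact ⟨SNI.ne (SNI.var k), fun _ => Or.inl (SNI.var k)⟩
    · subst heq
      have e : subst Δ.length (liftN Δ.length N₀) (Tm.var Δ.length) = liftN Δ.length N₀ := by
        rw [subst_var, if_neg (lt_irrefl _), if_pos rfl]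
      rw [e]
      refine ⟨hN₀.liftN _, fun _ => Or.inr ⟨liftN Δ.length A, s, ?_, ?_, hs, ?_⟩⟩
      · obtain ⟨A', hA', hc⟩ := Typing.gen_var hMt
        have hAA : A' = A := by simpa using hA'.symm
        subst hAA
        have h1' := hc.subst Δ.length (liftN Δ.length N₀)
        rwa [subst_liftN_succ] at h1'
      · have h1' := Typing.subst_lemma hN hMt
        have h2' := Typing.weakN hA h1'
        rw [substCtx_length, liftN_sort] at h2'
        exact h2'
      · rw [sz_liftN]; exact hn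
    · have e : subst Δ.length (liftN Δ.length N₀) (Tm.var k) = Tm.var (k - 1) := by
        rw [subst_var, if_neg (by omega), if_neg (by omega)]
      rw [e]
      exact ⟨SNI.ne (SNI.var _), fun _ => Or.inl (SNI.var _)⟩
  | @app M₁ N₁ hM₁ hN₁ ihM ihN =>
    intro Δ Γ A N₀ T s hMt hN hA hs hn hN₀
    obtain ⟨A₁, B₁, hM₁t, hN₁t, hc⟩ := Typing.gen_app hMt
    obtain ⟨hM₁s, hM₁n⟩ := ihM Δ Γ A N₀ _ s hM₁t hN hA hs hn hN₀
    obtain ⟨hN₁s, -⟩ := ihN Δ Γ A N₀ _ s hN₁t hN hA hs hn hN₀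
    rw [subst_app]
    rcases hM₁n rfl with hne | ⟨U, s', hcU, hUt, hs', hUn⟩
    · exact ⟨SNI.ne (SNI.app hne hN₁s), fun _ => Or.inl (SNI.app hne hN₁s)⟩
    · have hM₁t' := Typing.subst_lemma hN hM₁t
      have hN₁t' := Typing.subst_lemma hN hN₁t
      rw [subst_pi] at hM₁t' hcU
      obtain ⟨P, hP1, hP2⟩ := conv_common_reduct hcU
      obtain ⟨C, D, rfl, hC, hD⟩ := red_pi_inv hP1
      have hpi : Typing Ax Ru (substCtx N₀ Δ ++ Γ) (Tm.pi C D) (Tm.sort s') := hUt.red hP2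
      have hszU : sz (Tm.pi C D) = sz U := sz_red h1 h2 h3 hUt hP2
      obtain ⟨u₁, u₂, u₃, hR, hCt, hDt, hcs⟩ := Typing.gen_pi hpi
      have hu : s' = u₃ := conv_sort_sort hcs
      have hM₁t'' := Typing.conv hM₁t' hpi (Conv.of_red hP1)
      have hN₁t'' := Typing.conv hN₁t' hCt (Conv.of_red hC)
      have happ' := happ false _ hM₁s _ C D _ s' hM₁t'' hpi hs' (by omega) hN₁s hN₁t''
      have hz : sz (subst Δ.length (liftN Δ.length N₀) N₁) = 0 :=
        sz_eq_zero_of_base h2 h3 hN₁t'' (Conv.refl _) hCt (h1 _ _ _ hR)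
      refine ⟨happ', fun _ => Or.inr ⟨subst 0 (subst Δ.length (liftN Δ.length N₀) N₁) D, u₂, ?_,
        Typing.subst0 hN₁t'' hDt, h2 _ _ _ hR (hu ▸ hs'), ?_⟩⟩
      · have h1' := hc.subst Δ.length (liftN Δ.length N₀)
        rw [subst_subst B₁ 0 Δ.length _ N₁ (Nat.zero_le _)] at h1'
        exact h1'.trans ((Conv.of_red hD).subst 0 _)
      · rw [sz_subst D 0 _ hz]
        have : sz (Tm.pi C D) = sz C + sz D + 1 := rfl
        omega
  | ne _ ih =>
    intro Δ Γ A N₀ T s hMt hN hA hs hn hN₀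
    exact ⟨(ih Δ Γ A N₀ T s hMt hN hA hs hn hN₀).1, fun h => Bool.noConfusion h⟩
  | sort s₀ =>
    intro Δ Γ A N₀ T s hMt hN hA hs hn hN₀
    exact ⟨SNI.sort s₀, fun h => Bool.noConfusion h⟩
  | @pi A₁ B₁ hA₁ hB₁ ihA ihB =>
    intro Δ Γ A N₀ T s hMt hN hA hs hn hN₀
    obtain ⟨u₁, u₂, u₃, hR, hA₁t, hB₁t, -⟩ := Typing.gen_pi hMt
    have k1 := (ihA Δ Γ A N₀ _ s hA₁t hN hA hs hn hN₀).1
    have k2 := (ihB (A₁ :: Δ) Γ A N₀ _ s hB₁t hN hA hs hn hN₀).1
    exact ⟨SNI.pi k1 k2, fun h => Bool.noConfusion h⟩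
  | @lam A₁ M₁ hA₁ hM₁ ihA ihM =>
    intro Δ Γ A N₀ T s hMt hN hA hs hn hN₀
    obtain ⟨B₁, s₁, hM₁t, hpi, -⟩ := Typing.gen_lam hMt
    obtain ⟨u₁, u₂, u₃, hR, hA₁t, -, -⟩ := Typing.gen_pi hpi
    have k1 := (ihA Δ Γ A N₀ _ s hA₁t hN hA hs hn hN₀).1
    have k2 := (ihM (A₁ :: Δ) Γ A N₀ _ s hM₁t hN hA hs hn hN₀).1
    exact ⟨SNI.lam k1 k2, fun h => Bool.noConfusion h⟩
  | @exp M M' A₁ N₁ hWH hA₁ hN₁ hM' ihA ihN ihM' =>
    intro Δ Γ A N₀ T s hMt hN hA hs hn hN₀
    obtain ⟨t, T', hA₁t, hN₁t⟩ := wh_typing hWH hMt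
    have k1 := (ihA Δ Γ A N₀ _ s hA₁t hN hA hs hn hN₀).1
    have k2 := (ihN Δ Γ A N₀ _ s hN₁t hN hA hs hn hN₀).1
    have k3 := (ihM' Δ Γ A N₀ _ s (hMt.step hWH.step) hN hA hs hn hN₀).1
    exact ⟨SNI.exp (hWH.subst _ _) k1 k2 k3, fun h => Bool.noConfusion h⟩

theorem sub_app_propB (n : ℕ) : SubPropB Ax Ru B n ∧ AppPropB Ax Ru B n := by
  induction n using Nat.strong_induction_on with
  | _ n ih =>
    have happ := appPropB_of_subPropB h1 h2 h3 n (fun n' hn' => (ih n' hn').1)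
    exact ⟨subPropB_of_appPropB h1 h2 h3 n happ, happ⟩

/-- Application lemma for arbitrary product types. -/
theorem app_sni {b : Bool} {P : Tm S} (hP : SNI b P) :
    ∀ (Γ : List (Tm S)) (C D Q : Tm S) (s : S),
      Typing Ax Ru Γ P (Tm.pi C D) → Typing Ax Ru Γ (Tm.pi C D) (Tm.sort s) →
      SNI false Q → Typing Ax Ru Γ Q C → SNI false (Tm.app P Q) := by
  induction hP with
  | var k =>
    intro Γ C D Q s hPt hpi hQ hQt
    exact SNI.ne (SNI.app (SNI.var k) hQ)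
  | app hM hN _ _ =>
    intro Γ C D Q s hPt hpi hQ hQt
    exact SNI.ne (SNI.app (SNI.app hM hN) hQ)
  | ne _ ih => exact ih
  | sort s₀ =>
    intro Γ C D Q s hPt hpi hQ hQt
    obtain ⟨s', _, hc⟩ := Typing.gen_sort hPt
    exact absurd hc.symm not_conv_sort_pi
  | pi hA hB _ _ =>
    intro Γ C D Q s hPt hpi hQ hQt
    obtain ⟨_, _, s₃, _, _, _, hc⟩ := Typing.gen_pi hPt
    exact absurd hc.symm not_conv_sort_pi
  | @lam A M hA hM _ _ =>
    intro Γ C D Q s hPt hpi hQ hQt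
    exact app_lam_of_subPropB h1 h2 h3 (n := sz (Tm.pi C D) + 1)
      (fun n' _ => (sub_app_propB h1 h2 h3 n').1) hA hM hPt hpi (Nat.le_succ _) hQ hQt
  | @exp M M' A N hWH hA hN hM' _ _ ih =>
    intro Γ C D Q s hPt hpi hQ hQt
    exact SNI.exp (WH.app Q hWH) hA hN (ih Γ C D Q s (hPt.step hWH.step) hpi hQ hQt)

/-- Every typable term of a first-order pure type system is strongly normalising. -/
theorem sni_of_typing_fo {Γ : List (Tm S)} {M T : Tm S} (h : Typing Ax Ru Γ M T) :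
    SNI false M := by
  induction h with
  | ax _ => exact SNI.sort _
  | var _ _ => exact SNI.ne (SNI.var 0)
  | weak _ _ ih _ => exact ih.lift 0
  | prod _ _ _ ih₁ ih₂ => exact SNI.pi ih₁ ih₂
  | abs _ _ ih₁ ih₂ => exact SNI.lam (SNI.pi_inv ih₂).1 ih₁
  | app k₁ k₂ ih₁ ih₂ =>
    rcases Typing.type_correct k₁ with ⟨s, hs⟩ | ⟨s, hs⟩
    · cases hs
    · exact app_sni h1 h2 h3 ih₁ _ _ _ _ s k₁ hs ih₂ k₂
  | conv _ _ _ ih _ => exact ih

/-- First-order pure type systems are strongly normalizing. -/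
theorem first_order_sn : StronglyNormalizing Ax Ru := by
  intro M hM
  obtain ⟨Γ, N, h | h⟩ := hM
  · exact (sni_of_typing_fo h1 h2 h3 h).no_infinite
  · rcases Typing.type_correct h with ⟨s, rfl⟩ | ⟨s, hs⟩
    · exact (SNI.sort s).no_infinite
    · exact (sni_of_typing_fo h1 h2 h3 hs).no_infinite

end

end Vale.Agent.Lib.P340
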