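import Vale.Agent.Lib.P340.Thin
import Vale.Agent.Lib.P340.CR

/-!
# Generation lemmas, correctness of types, context conversion and subject reduction
-/

namespace Vale.Agent.Lib.P340

universe u

variable {S : Type u} {Ax : S → S → Prop} {Ru : S → S → S → Prop}

/-! ### Inverting a lift -/

theorem lift_eq_sort {c : ℕ} {M : Tm S} {s : S} (h : lift c M = Tm.sort s) : M = Tm.sort s := by
  cases M with
  | var n => simp only [lift_var] at h; split_ifs at h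
  | sort t => exact h
  | app _ _ => cases h
  | lam _ _ => cases h
  | pi _ _ => cases h

theorem lift_eq_var {c : ℕ} {M : Tm S} {n : ℕ} (h : lift c M = Tm.var n) :
    ∃ m, M = Tm.var m ∧ (if m < c then m else m + 1) = n := by
  cases M with
  | var m =>
    refine ⟨m, rfl, ?_⟩
    simp only [lift_var] at h
    split_ifs at h with hm
    · rw [if_pos hm]; injection h
    · rw [if_neg hm]; injection h
  | sort t => cases h
  | app _ _ => cases h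
  | lam _ _ => cases h
  | pi _ _ => cases h

theorem lift_eq_app {c : ℕ} {M P Q : Tm S} (h : lift c M = Tm.app P Q) :
    ∃ P₀ Q₀, M = Tm.app P₀ Q₀ ∧ P = lift c P₀ ∧ Q = lift c Q₀ := by
  cases M with
  | var n => simp only [lift_var] at h; split_ifs at h
  | sort t => cases h
  | app P₀ Q₀ => rw [lift_app] at h; injection h with h1 h2; exact ⟨P₀, Q₀, rfl, h1.symm, h2.symm⟩
  | lam _ _ => cases h
  | pi _ _ => cases h

theorem lift_eq_lam {c : ℕ} {M P Q : Tm S} (h : lift c M = Tm.lam P Q) :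
    ∃ P₀ Q₀, M = Tm.lam P₀ Q₀ ∧ P = lift c P₀ ∧ Q = lift (c + 1) Q₀ := by
  cases M with
  | var n => simp only [lift_var] at h; split_ifs at h
  | sort t => cases h
  | app _ _ => cases h
  | lam P₀ Q₀ => rw [lift_lam] at h; injection h with h1 h2; exact ⟨P₀, Q₀, rfl, h1.symm, h2.symm⟩
  | pi _ _ => cases h

theorem lift_eq_pi {c : ℕ} {M P Q : Tm S} (h : lift c M = Tm.pi P Q) :
    ∃ P₀ Q₀, M = Tm.pi P₀ Q₀ ∧ P = lift c P₀ ∧ Q = lift (c + 1) Q₀ := by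
  cases M with
  | var n => simp only [lift_var] at h; split_ifs at h
  | sort t => cases h
  | app _ _ => cases h
  | lam _ _ => cases h
  | pi P₀ Q₀ => rw [lift_pi] at h; injection h with h1 h2; exact ⟨P₀, Q₀, rfl, h1.symm, h2.symm⟩

/-! ### Contexts are well formed -/

theorem Typing.ctx_wf {Γ : List (Tm S)} {C M T : Tm S} (h : Typing Ax Ru (C :: Γ) M T) :
    ∃ s, Typing Ax Ru Γ C (Tm.sort s) := by
  generalize hG : C :: Γ = G at h
  induction h generalizing C Γ with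
  | ax _ => cases hG
  | var h _ => cases hG; exact ⟨_, h⟩
  | weak _ h _ _ => cases hG; exact ⟨_, h⟩
  | prod _ _ _ ih _ => exact ih hG
  | abs _ _ _ ih => exact ih hG
  | app _ _ ih _ => exact ih hG
  | conv _ _ _ ih _ => exact ih hG

/-- Weakening by a whole context front. -/
theorem Typing.weakN {Γ : List (Tm S)} {M T : Tm S} (h : Typing Ax Ru Γ M T) :
    ∀ {Δ : List (Tm S)} {X Y : Tm S}, Typing Ax Ru (Δ ++ Γ) X Y →
      Typing Ax Ru (Δ ++ Γ) (liftN Δ.length M) (liftN Δ.length T) := by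
  intro Δ
  induction Δ with
  | nil => intro X Y _; exact h
  | cons D Δ ih =>
    intro X Y hXY
    obtain ⟨s, hD⟩ := Typing.ctx_wf (Γ := Δ ++ Γ) hXY
    exact Typing.weak (ih hD) hD

/-! ### Generation lemmas -/

theorem Typing.gen_sort {Γ : List (Tm S)} {s : S} {T : Tm S}
    (h : Typing Ax Ru Γ (Tm.sort s) T) : ∃ s', Ax s s' ∧ Conv T (Tm.sort s') := by
  generalize hM : Tm.sort s = M at h
  induction h with
  | ax hax => cases hM; exact ⟨_, hax, Conv.refl _⟩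
  | var _ _ => cases hM
  | weak h₁ _ ih _ =>
    obtain ⟨s', hax, hc⟩ := ih (lift_eq_sort hM.symm).symm
    exact ⟨s', hax, hc.lift 0⟩
  | prod _ _ _ _ _ => cases hM
  | abs _ _ _ _ => cases hM
  | app _ _ _ _ => cases hM
  | conv _ _ hc ih _ =>
    obtain ⟨s', hax, hc'⟩ := ih hM
    exact ⟨s', hax, hc.symm.trans hc'⟩

theorem Typing.gen_var {Γ : List (Tm S)} {n : ℕ} {T : Tm S}
    (h : Typing Ax Ru Γ (Tm.var n) T) : ∃ A, Γ[n]? = some A ∧ Conv T (liftN (n + 1) A) := by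
  generalize hM : Tm.var n = M at h
  induction h generalizing n with
  | ax _ => cases hM
  | @var Γ A s _ _ =>
    cases hM
    exact ⟨A, rfl, Conv.refl _⟩
  | weak h₁ _ ih _ =>
    obtain ⟨m, rfl, hm⟩ := lift_eq_var hM.symm
    simp only [Nat.not_lt_zero, if_false] at hm
    subst hm
    obtain ⟨A, hA, hc⟩ := ih rfl
    exact ⟨A, by simpa using hA, hc.lift 0⟩
  | prod _ _ _ _ _ => cases hM
  | abs _ _ _ _ => cases hM
  | app _ _ _ _ => cases hM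
  | conv _ _ hc ih _ =>
    obtain ⟨A, hA, hc'⟩ := ih hM
    exact ⟨A, hA, hc.symm.trans hc'⟩

theorem Typing.gen_app {Γ : List (Tm S)} {M N T : Tm S}
    (h : Typing Ax Ru Γ (Tm.app M N) T) :
    ∃ A B, Typing Ax Ru Γ M (Tm.pi A B) ∧ Typing Ax Ru Γ N A ∧ Conv T (subst 0 N B) := by
  generalize hM : Tm.app M N = X at h
  induction h generalizing M N with
  | ax _ => cases hM
  | var _ _ => cases hM
  | weak h₁ h₂ ih _ =>
    obtain ⟨P₀, Q₀, rfl, rfl, rfl⟩ := lift_eq_app hM.symm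
    obtain ⟨A, B, hP, hQ, hc⟩ := ih rfl
    refine ⟨lift 0 A, lift 1 B, Typing.weak hP h₂, Typing.weak hQ h₂, ?_⟩
    rw [← lift_subst B 0 0 Q₀ (Nat.le_refl 0)]
    exact hc.lift 0
  | prod _ _ _ _ _ => cases hM
  | abs _ _ _ _ => cases hM
  | app h₁ h₂ _ _ =>
    cases hM
    exact ⟨_, _, h₁, h₂, Conv.refl _⟩
  | conv _ _ hc ih _ =>
    obtain ⟨A, B, hP, hQ, hc'⟩ := ih hM
    exact ⟨A, B, hP, hQ, hc.symm.trans hc'⟩

theorem Typing.gen_pi {Γ : List (Tm S)} {A B T : Tm S}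
    (h : Typing Ax Ru Γ (Tm.pi A B) T) :
    ∃ s₁ s₂ s₃, Ru s₁ s₂ s₃ ∧ Typing Ax Ru Γ A (Tm.sort s₁) ∧
      Typing Ax Ru (A :: Γ) B (Tm.sort s₂) ∧ Conv T (Tm.sort s₃) := by
  generalize hM : Tm.pi A B = X at h
  induction h generalizing A B with
  | ax _ => cases hM
  | var _ _ => cases hM
  | @weak Γ₀ M₀ B₀ C s h₁ h₂ ih _ =>
    obtain ⟨P₀, Q₀, rfl, rfl, rfl⟩ := lift_eq_pi hM.symm
    obtain ⟨s₁, s₂, s₃, hR, hP, hQ, hc⟩ := ih rfl
    refine ⟨s₁, s₂, s₃, hR, Typing.weak hP h₂, ?_, hc.lift 0⟩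
    exact Typing.thin h₂ (Δ := [P₀]) hQ
  | prod hR h₁ h₂ _ _ =>
    cases hM
    exact ⟨_, _, _, hR, h₁, h₂, Conv.refl _⟩
  | abs _ _ _ _ => cases hM
  | app _ _ _ _ => cases hM
  | conv _ _ hc ih _ =>
    obtain ⟨s₁, s₂, s₃, hR, hP, hQ, hc'⟩ := ih hM
    exact ⟨s₁, s₂, s₃, hR, hP, hQ, hc.symm.trans hc'⟩

theorem Typing.gen_lam {Γ : List (Tm S)} {A M T : Tm S}
    (h : Typing Ax Ru Γ (Tm.lam A M) T) :
    ∃ B s, Typing Ax Ru (A :: Γ) M B ∧ Typing Ax Ru Γ (Tm.pi A B) (Tm.sort s) ∧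
      Conv T (Tm.pi A B) := by
  generalize hM : Tm.lam A M = X at h
  induction h generalizing A M with
  | ax _ => cases hM
  | var _ _ => cases hM
  | @weak Γ₀ M₀ B₀ C s h₁ h₂ ih _ =>
    obtain ⟨P₀, Q₀, rfl, rfl, rfl⟩ := lift_eq_lam hM.symm
    obtain ⟨B, s', hQ, hP, hc⟩ := ih rfl
    refine ⟨lift 1 B, s', ?_, Typing.weak hP h₂, hc.lift 0⟩
    exact Typing.thin h₂ (Δ := [P₀]) hQ
  | prod _ _ _ _ _ => cases hM
  | abs h₁ h₂ _ _ =>
    cases hM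
    exact ⟨_, _, h₁, h₂, Conv.refl _⟩
  | app _ _ _ _ => cases hM
  | conv _ _ hc ih _ =>
    obtain ⟨B, s', hQ, hP, hc'⟩ := ih hM
    exact ⟨B, s', hQ, hP, hc.symm.trans hc'⟩

/-! ### Correctness of types -/

theorem Typing.type_correct {Γ : List (Tm S)} {M T : Tm S} (h : Typing Ax Ru Γ M T) :
    (∃ s, T = Tm.sort s) ∨ ∃ s, Typing Ax Ru Γ T (Tm.sort s) := by
  induction h with
  | ax _ => exact Or.inl ⟨_, rfl⟩
  | var h _ => exact Or.inr ⟨_, Typing.weak h h⟩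
  | weak _ h₂ ih _ =>
    rcases ih with ⟨s, rfl⟩ | ⟨s, hs⟩
    · exact Or.inl ⟨s, rfl⟩
    · exact Or.inr ⟨s, Typing.weak hs h₂⟩
  | prod _ _ _ _ _ => exact Or.inl ⟨_, rfl⟩
  | abs _ h₂ _ _ => exact Or.inr ⟨_, h₂⟩
  | app _ h₂ ih _ =>
    rcases ih with ⟨s, hs⟩ | ⟨s, hs⟩
    · cases hs
    · obtain ⟨s₁, s₂, s₃, _, _, hB, _⟩ := Typing.gen_pi hs
      exact Or.inr ⟨s₂, Typing.subst0 h₂ hB⟩
  | conv _ h₂ _ _ _ => exact Or.inr ⟨_, h₂⟩

/-! ### Context conversion -/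

theorem Typing.ctx_conv {Γ : List (Tm S)} {A A' : Tm S} {s' : S} (hc : Conv A A')
    (hA' : Typing Ax Ru Γ A' (Tm.sort s')) :
    ∀ {Δ : List (Tm S)} {M T : Tm S}, Typing Ax Ru (Δ ++ A :: Γ) M T →
      Typing Ax Ru (Δ ++ A' :: Γ) M T := by
  intro Δ M T h
  generalize hG : Δ ++ A :: Γ = G at h
  induction h generalizing Δ with
  | ax _ => cases Δ <;> cases hG
  | @var Γ₀ A₀ s h ih =>
    cases Δ with
    | nil =>
      cases hG
      exact Typing.conv (Typing.var hA') (Typing.weak h hA') (hc.symm.lift 0)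
    | cons D Δ' =>
      cases hG
      exact Typing.var (ih rfl)
  | @weak Γ₀ M₀ B₀ A₀ s h₁ h₂ ih₁ ih₂ =>
    cases Δ with
    | nil =>
      cases hG
      exact Typing.weak h₁ hA'
    | cons D Δ' =>
      cases hG
      exact Typing.weak (ih₁ rfl) (ih₂ rfl)
  | @prod Γ₀ A₁ B₁ s₁ s₂ s₃ hR h₁ h₂ ih₁ ih₂ =>
    subst hG
    exact Typing.prod hR (ih₁ rfl) (ih₂ (Δ := A₁ :: Δ) rfl)
  | @abs Γ₀ A₁ M₁ B₁ s h₁ h₂ ih₁ ih₂ =>
    subst hG
    exact Typing.abs (ih₁ (Δ := A₁ :: Δ) rfl) (ih₂ rfl)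
  | app h₁ h₂ ih₁ ih₂ =>
    subst hG
    exact Typing.app (ih₁ rfl) (ih₂ rfl)
  | conv h₁ h₂ hc' ih₁ ih₂ =>
    subst hG
    exact Typing.conv (ih₁ rfl) (ih₂ rfl) hc'

theorem Typing.ctx_conv0 {Γ : List (Tm S)} {A A' M T : Tm S} {s' : S} (hc : Conv A A')
    (hA' : Typing Ax Ru Γ A' (Tm.sort s')) (h : Typing Ax Ru (A :: Γ) M T) :
    Typing Ax Ru (A' :: Γ) M T :=
  Typing.ctx_conv hc hA' (Δ := []) h

/-! ### Subject reduction -/

theorem Typing.step {Γ : List (Tm S)} {M T : Tm S} (h : Typing Ax Ru Γ M T) :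
    ∀ {M' : Tm S}, Step M M' → Typing Ax Ru Γ M' T := by
  induction h with
  | ax _ => intro M' hs; cases hs
  | var _ _ => intro M' hs; cases hs
  | weak h₁ h₂ ih₁ _ =>
    intro M' hs
    obtain ⟨M₀, rfl, hs₀⟩ := step_lift_inv _ _ _ hs
    exact Typing.weak (ih₁ hs₀) h₂
  | @prod Γ₀ A₁ B₁ s₁ s₂ s₃ hR h₁ h₂ ih₁ ih₂ =>
    intro M' hs
    cases hs with
    | piL _ hs' =>
      exact Typing.prod hR (ih₁ hs') (Typing.ctx_conv0 (Conv.of_step hs') (ih₁ hs') h₂)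
    | piR _ hs' => exact Typing.prod hR h₁ (ih₂ hs')
  | @abs Γ₀ A₁ M₁ B₁ s h₁ h₂ ih₁ ih₂ =>
    intro M' hs
    cases hs with
    | @lamL _ A₁' _ hs' =>
      have hpi : Typing Ax Ru Γ₀ (Tm.pi A₁' B₁) (Tm.sort s) := ih₂ (Step.piL B₁ hs')
      obtain ⟨t₁, t₂, t₃, _, hA', _, _⟩ := Typing.gen_pi hpi
      exact Typing.conv (Typing.abs (Typing.ctx_conv0 (Conv.of_step hs') hA' h₁) hpi) h₂
        (Conv.of_step (Step.piL B₁ hs')).symm
    | lamR _ hs' => exact Typing.abs (ih₁ hs') h₂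
  | @app Γ₀ M₁ N₁ A₁ B₁ h₁ h₂ ih₁ ih₂ =>
    intro M' hs
    have hB : ∃ t, Typing Ax Ru Γ₀ (subst 0 N₁ B₁) (Tm.sort t) := by
      rcases Typing.type_correct h₁ with ⟨s, hs⟩ | ⟨s, hs⟩
      · cases hs
      · obtain ⟨s₁, s₂, s₃, _, _, hB, _⟩ := Typing.gen_pi hs
        exact ⟨s₂, Typing.subst0 h₂ hB⟩
    obtain ⟨t, hBt⟩ := hB
    cases hs with
    | beta A₂ M₂ N₂ =>
      obtain ⟨B₂, s₂, hM₂, hpi₂, hc⟩ := Typing.gen_lam h₁
      obtain ⟨hcA, hcB⟩ := conv_pi_inj hc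
      obtain ⟨t₁, t₂, t₃, _, hA₂, _, _⟩ := Typing.gen_pi hpi₂
      have hN : Typing Ax Ru Γ₀ N₁ A₂ := Typing.conv h₂ hA₂ hcA
      exact Typing.conv (Typing.subst0 hN hM₂) hBt ((hcB.subst 0 N₁).symm)
    | appL _ hs' => exact Typing.app (ih₁ hs') h₂
    | appR _ hs' =>
      exact Typing.conv (Typing.app h₁ (ih₂ hs')) hBt
        (Conv.of_red (red_subst_arg B₁ 0 hs')).symm
  | conv h₁ h₂ hc ih₁ _ =>
    intro M' hs
    exact Typing.conv (ih₁ hs) h₂ hc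

theorem Typing.red {Γ : List (Tm S)} {M M' T : Tm S} (h : Typing Ax Ru Γ M T)
    (hr : Red M M') : Typing Ax Ru Γ M' T := by
  induction hr with
  | refl => exact h
  | tail _ hs ih => exact ih.step hs

end Vale.Agent.Lib.P340
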