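import Vale.Agent.Lib.P340.Subst

/-!
# Reduction and conversion: compatibility with lifting, substitution and the term formers
-/

namespace Vale.Agent.Lib.P340

universe u

variable {S : Type u}

/-- Many-step beta reduction. -/
abbrev Red (M N : Tm S) : Prop := Relation.ReflTransGen Step M N

theorem Step.lift {M M' : Tm S} (h : Step M M') : ∀ c : ℕ, Step (lift c M) (lift c M') := by
  induction h with
  | beta A M N =>
    intro c
    rw [lift_subst M 0 c N (Nat.zero_le c)]
    exact Step.beta _ _ _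
  | appL N _ ih => intro c; exact Step.appL _ (ih c)
  | appR M _ ih => intro c; exact Step.appR _ (ih c)
  | lamL M _ ih => intro c; exact Step.lamL _ (ih c)
  | lamR A _ ih => intro c; exact Step.lamR _ (ih (c + 1))
  | piL B _ ih => intro c; exact Step.piL _ (ih c)
  | piR A _ ih => intro c; exact Step.piR _ (ih (c + 1))

theorem Step.subst {M M' : Tm S} (h : Step M M') :
    ∀ (k : ℕ) (N : Tm S), Step (subst k N M) (subst k N M') := by
  induction h with
  | beta A M P =>
    intro k N
    rw [subst_subst M 0 k N P (Nat.zero_le k)]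
    exact Step.beta _ _ _
  | appL N _ ih => intro k N; exact Step.appL _ (ih k N)
  | appR M _ ih => intro k N; exact Step.appR _ (ih k N)
  | lamL M _ ih => intro k N; exact Step.lamL _ (ih k N)
  | lamR A _ ih => intro k N; exact Step.lamR _ (ih (k + 1) (Vale.Agent.Lib.P340.lift 0 N))
  | piL B _ ih => intro k N; exact Step.piL _ (ih k N)
  | piR A _ ih => intro k N; exact Step.piR _ (ih (k + 1) (Vale.Agent.Lib.P340.lift 0 N))

theorem Red.appL {M M' : Tm S} (N : Tm S) (h : Red M M') : Red (Tm.app M N) (Tm.app M' N) :=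
  Relation.ReflTransGen.lift (fun X => Tm.app X N) (fun _ _ h => Step.appL N h) _ _ h

theorem Red.appR (M : Tm S) {N N' : Tm S} (h : Red N N') : Red (Tm.app M N) (Tm.app M N') :=
  Relation.ReflTransGen.lift (fun X => Tm.app M X) (fun _ _ h => Step.appR M h) _ _ h

theorem Red.app {M M' N N' : Tm S} (h₁ : Red M M') (h₂ : Red N N') :
    Red (Tm.app M N) (Tm.app M' N') :=
  (Red.appL N h₁).trans (Red.appR M' h₂)

theorem Red.lamL {A A' : Tm S} (M : Tm S) (h : Red A A') : Red (Tm.lam A M) (Tm.lam A' M) :=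
  Relation.ReflTransGen.lift (fun X => Tm.lam X M) (fun _ _ h => Step.lamL M h) _ _ h

theorem Red.lamR (A : Tm S) {M M' : Tm S} (h : Red M M') : Red (Tm.lam A M) (Tm.lam A M') :=
  Relation.ReflTransGen.lift (fun X => Tm.lam A X) (fun _ _ h => Step.lamR A h) _ _ h

theorem Red.lam {A A' M M' : Tm S} (h₁ : Red A A') (h₂ : Red M M') :
    Red (Tm.lam A M) (Tm.lam A' M') :=
  (Red.lamL M h₁).trans (Red.lamR A' h₂)

theorem Red.piL {A A' : Tm S} (B : Tm S) (h : Red A A') : Red (Tm.pi A B) (Tm.pi A' B) :=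
  Relation.ReflTransGen.lift (fun X => Tm.pi X B) (fun _ _ h => Step.piL B h) _ _ h

theorem Red.piR (A : Tm S) {B B' : Tm S} (h : Red B B') : Red (Tm.pi A B) (Tm.pi A B') :=
  Relation.ReflTransGen.lift (fun X => Tm.pi A X) (fun _ _ h => Step.piR A h) _ _ h

theorem Red.pi {A A' B B' : Tm S} (h₁ : Red A A') (h₂ : Red B B') :
    Red (Tm.pi A B) (Tm.pi A' B') :=
  (Red.piL B h₁).trans (Red.piR A' h₂)

theorem Red.lift {M M' : Tm S} (h : Red M M') (c : ℕ) :
    Red (Vale.Agent.Lib.P340.lift c M) (Vale.Agent.Lib.P340.lift c M') :=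
  Relation.ReflTransGen.lift (fun X => Vale.Agent.Lib.P340.lift c X) (fun _ _ h => h.lift c) _ _ h

theorem Red.subst {M M' : Tm S} (h : Red M M') (k : ℕ) (N : Tm S) :
    Red (Vale.Agent.Lib.P340.subst k N M) (Vale.Agent.Lib.P340.subst k N M') :=
  Relation.ReflTransGen.lift (fun X => Vale.Agent.Lib.P340.subst k N X)
    (fun _ _ h => h.subst k N) _ _ h

/-- Reducing the substituted term. -/
theorem red_subst_arg (M : Tm S) : ∀ (k : ℕ) {N N' : Tm S}, Step N N' →
    Red (subst k N M) (subst k N' M) := by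
  induction M with
  | var n =>
    intro k N N' h
    simp only [subst_var]
    split_ifs
    · exact Relation.ReflTransGen.refl
    · exact Relation.ReflTransGen.single h
    · exact Relation.ReflTransGen.refl
  | sort s => intro k N N' h; exact Relation.ReflTransGen.refl
  | app M P ihM ihP => intro k N N' h; exact Red.app (ihM k h) (ihP k h)
  | lam A M ihA ihM => intro k N N' h; exact Red.lam (ihA k h) (ihM (k + 1) (h.lift 0))
  | pi A B ihA ihB => intro k N N' h; exact Red.pi (ihA k h) (ihB (k + 1) (h.lift 0))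

theorem Red.subst_arg (M : Tm S) (k : ℕ) {N N' : Tm S} (h : Red N N') :
    Red (Vale.Agent.Lib.P340.subst k N M) (Vale.Agent.Lib.P340.subst k N' M) := by
  induction h with
  | refl => exact Relation.ReflTransGen.refl
  | tail _ h2 ih => exact ih.trans (red_subst_arg M k h2)

/-! ### Conversion -/

theorem Conv.refl (M : Tm S) : Conv M M := Relation.EqvGen.refl M

theorem Conv.symm {M N : Tm S} (h : Conv M N) : Conv N M := Relation.EqvGen.symm _ _ h

theorem Conv.trans {M N P : Tm S} (h₁ : Conv M N) (h₂ : Conv N P) : Conv M P :=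
  Relation.EqvGen.trans _ _ _ h₁ h₂

theorem Conv.of_step {M N : Tm S} (h : Step M N) : Conv M N := Relation.EqvGen.rel _ _ h

theorem Conv.of_red {M N : Tm S} (h : Red M N) : Conv M N := by
  induction h with
  | refl => exact Conv.refl _
  | tail _ h2 ih => exact ih.trans (Conv.of_step h2)

theorem Conv.congr (f : Tm S → Tm S) (hf : ∀ a b, Step a b → Conv (f a) (f b)) {M N : Tm S}
    (h : Conv M N) : Conv (f M) (f N) := by
  induction h with
  | rel a b h => exact hf a b h
  | refl a => exact Conv.refl _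
  | symm a b _ ih => exact ih.symm
  | trans a b c _ _ ih1 ih2 => exact ih1.trans ih2

theorem Conv.lift {M N : Tm S} (h : Conv M N) (c : ℕ) :
    Conv (Vale.Agent.Lib.P340.lift c M) (Vale.Agent.Lib.P340.lift c N) :=
  Conv.congr _ (fun _ _ h => Conv.of_step (h.lift c)) h

theorem Conv.subst {M N : Tm S} (h : Conv M N) (k : ℕ) (P : Tm S) :
    Conv (Vale.Agent.Lib.P340.subst k P M) (Vale.Agent.Lib.P340.subst k P N) :=
  Conv.congr _ (fun _ _ h => Conv.of_step (h.subst k P)) h

theorem Conv.subst_arg (M : Tm S) (k : ℕ) {N N' : Tm S} (h : Conv N N') :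
    Conv (Vale.Agent.Lib.P340.subst k N M) (Vale.Agent.Lib.P340.subst k N' M) :=
  Conv.congr (fun X => Vale.Agent.Lib.P340.subst k X M)
    (fun _ _ h => Conv.of_red (red_subst_arg M k h)) h

theorem Conv.piL {A A' : Tm S} (B : Tm S) (h : Conv A A') : Conv (Tm.pi A B) (Tm.pi A' B) :=
  Conv.congr (fun X => Tm.pi X B) (fun _ _ h => Conv.of_step (Step.piL B h)) h

theorem Conv.piR (A : Tm S) {B B' : Tm S} (h : Conv B B') : Conv (Tm.pi A B) (Tm.pi A B') :=
  Conv.congr (fun X => Tm.pi A X) (fun _ _ h => Conv.of_step (Step.piR A h)) h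

theorem Conv.pi {A A' B B' : Tm S} (h₁ : Conv A A') (h₂ : Conv B B') :
    Conv (Tm.pi A B) (Tm.pi A' B') :=
  (Conv.piL B h₁).trans (Conv.piR A' h₂)

/-- A step out of a lifted term is the lift of a step. -/
theorem step_lift_inv (M : Tm S) : ∀ (c : ℕ) (X : Tm S), Step (lift c M) X →
    ∃ M', X = lift c M' ∧ Step M M' := by
  induction M with
  | var n =>
    intro c X h
    simp only [lift_var] at h
    split_ifs at h <;> cases h
  | sort s => intro c X h; cases h
  | app M N ihM ihN =>
    intro c X h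
    rw [lift_app] at h
    generalize hL : lift c M = L at h
    cases h with
    | beta A M₀ N₀ =>
      cases M with
      | lam A₁ M₁ =>
        rw [lift_lam] at hL
        injection hL with h1 h2
        subst h1 h2
        exact ⟨subst 0 N M₁, by rw [lift_subst M₁ 0 c N (Nat.zero_le c)], Step.beta _ _ _⟩
      | var n => simp only [lift_var] at hL; split_ifs at hL <;> cases hL
      | sort s => cases hL
      | app _ _ => cases hL
      | pi _ _ => cases hL
    | appL _ h' =>
      subst hL
      obtain ⟨M', rfl, hs⟩ := ihM c _ h'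
      exact ⟨Tm.app M' N, rfl, Step.appL N hs⟩
    | appR _ h' =>
      subst hL
      obtain ⟨N', rfl, hs⟩ := ihN c _ h'
      exact ⟨Tm.app M N', rfl, Step.appR M hs⟩
  | lam A M ihA ihM =>
    intro c X h
    rw [lift_lam] at h
    cases h with
    | lamL _ h' =>
      obtain ⟨A', rfl, hs⟩ := ihA c _ h'
      exact ⟨Tm.lam A' M, rfl, Step.lamL M hs⟩
    | lamR _ h' =>
      obtain ⟨M', rfl, hs⟩ := ihM (c + 1) _ h'
      exact ⟨Tm.lam A M', rfl, Step.lamR A hs⟩
  | pi A B ihA ihB =>
    intro c X h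
    rw [lift_pi] at h
    cases h with
    | piL _ h' =>
      obtain ⟨A', rfl, hs⟩ := ihA c _ h'
      exact ⟨Tm.pi A' B, rfl, Step.piL B hs⟩
    | piR _ h' =>
      obtain ⟨B', rfl, hs⟩ := ihB (c + 1) _ h'
      exact ⟨Tm.pi A B', rfl, Step.piR A hs⟩

end Vale.Agent.Lib.P340
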