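import Vale.Agent.Lib.P340.Red

/-!
# Inductive strong normalisation is sound

Weak head reduction `WH`, the inductive characterisation `SNI` of strongly normalising terms
(neutral terms and all terms), and the proof that every `SNI` term is accessible for the
converse of one-step beta reduction, hence has no infinite reduction sequence.
-/

namespace Vale.Agent.Lib.P340

universe u

variable {S : Type u}

/-- Weak head reduction, recording the domain and the argument of the contracted redex. -/
inductive WH : Tm S → Tm S → Tm S → Tm S → Prop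
  | beta (A M N : Tm S) : WH (Tm.app (Tm.lam A M) N) (subst 0 N M) A N
  | app {M M' A N : Tm S} (P : Tm S) : WH M M' A N → WH (Tm.app M P) (Tm.app M' P) A N

/-- Inductive strong normalisation: `SNI true` = neutral terms, `SNI false` = all terms. -/
inductive SNI : Bool → Tm S → Prop
  | var (n : ℕ) : SNI true (Tm.var n)
  | app {M N : Tm S} : SNI true M → SNI false N → SNI true (Tm.app M N)
  | ne {M : Tm S} : SNI true M → SNI false M
  | sort (s : S) : SNI false (Tm.sort s)
  | pi {A B : Tm S} : SNI false A → SNI false B → SNI false (Tm.pi A B)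
  | lam {A M : Tm S} : SNI false A → SNI false M → SNI false (Tm.lam A M)
  | exp {M M' A N : Tm S} : WH M M' A N → SNI false A → SNI false N → SNI false M' → SNI false M

theorem WH.step {M M' A N : Tm S} (h : WH M M' A N) : Step M M' := by
  induction h with
  | beta A M N => exact Step.beta A M N
  | app P _ ih => exact Step.appL P ih

theorem WH.lift {M M' A N : Tm S} (h : WH M M' A N) (c : ℕ) :
    WH (Vale.Agent.Lib.P340.lift c M) (Vale.Agent.Lib.P340.lift c M')
      (Vale.Agent.Lib.P340.lift c A) (Vale.Agent.Lib.P340.lift c N) := by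
  induction h with
  | beta A M N =>
    rw [lift_subst M 0 c N (Nat.zero_le c)]
    exact WH.beta _ _ _
  | app P _ ih => exact WH.app _ ih

theorem WH.subst {M M' A N : Tm S} (h : WH M M' A N) (k : ℕ) (P : Tm S) :
    WH (Vale.Agent.Lib.P340.subst k P M) (Vale.Agent.Lib.P340.subst k P M')
      (Vale.Agent.Lib.P340.subst k P A) (Vale.Agent.Lib.P340.subst k P N) := by
  induction h with
  | beta A M N =>
    rw [subst_subst M 0 k P N (Nat.zero_le k)]
    exact WH.beta _ _ _
  | app Q _ ih => exact WH.app _ ih

theorem SNI.lift {b : Bool} {M : Tm S} (h : SNI b M) (c : ℕ) :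
    SNI b (Vale.Agent.Lib.P340.lift c M) := by
  induction h generalizing c with
  | var n =>
    rw [lift_var]
    split_ifs
    · exact SNI.var _
    · exact SNI.var _
  | app _ _ ih1 ih2 => exact SNI.app (ih1 c) (ih2 c)
  | ne _ ih => exact SNI.ne (ih c)
  | sort s => exact SNI.sort s
  | pi _ _ ih1 ih2 => exact SNI.pi (ih1 c) (ih2 (c + 1))
  | lam _ _ ih1 ih2 => exact SNI.lam (ih1 c) (ih2 (c + 1))
  | exp hw _ _ _ ih1 ih2 ih3 => exact SNI.exp (hw.lift c) (ih1 c) (ih2 c) (ih3 c)

theorem SNI.pi_inv {A B : Tm S} (h : SNI false (Tm.pi A B)) : SNI false A ∧ SNI false B := by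
  cases h with
  | ne h' => cases h'
  | pi hA hB => exact ⟨hA, hB⟩
  | exp hw _ _ _ => cases hw

/-- Commutation of a weak head step with an arbitrary step from the same source. -/
theorem WH.commute {M M' A N : Tm S} (h : WH M M' A N) :
    ∀ X : Tm S, Step M X →
      X = M' ∨ (∃ M'', WH X M'' A N ∧ Step M' M'') ∨ (∃ A', Step A A' ∧ WH X M' A' N) ∨
        (∃ N' M'', Step N N' ∧ WH X M'' A N' ∧ Red M' M'') := by
  induction h with
  | beta A M N =>
    intro X hX
    cases hX with
    | beta _ _ _ => exact Or.inl rfl
    | appL _ h' =>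
      cases h' with
      | lamL _ hA =>
        exact Or.inr (Or.inr (Or.inl ⟨_, hA, WH.beta _ _ _⟩))
      | lamR _ hM =>
        exact Or.inr (Or.inl ⟨_, WH.beta _ _ _, hM.subst 0 N⟩)
    | appR _ hN =>
      exact Or.inr (Or.inr (Or.inr ⟨_, _, hN, WH.beta _ _ _, red_subst_arg M 0 hN⟩))
  | app P hw ih =>
    intro X hX
    cases hX with
    | beta _ _ _ => cases hw
    | appL _ h' =>
      rcases ih _ h' with rfl | ⟨M'', hw', hs⟩ | ⟨A', hA', hw'⟩ | ⟨N', M'', hN', hw', hr⟩
      · exact Or.inl rfl
      · exact Or.inr (Or.inl ⟨_, WH.app P hw', Step.appL P hs⟩)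
      · exact Or.inr (Or.inr (Or.inl ⟨A', hA', WH.app P hw'⟩))
      · exact Or.inr (Or.inr (Or.inr ⟨N', _, hN', WH.app P hw', Red.appL P hr⟩))
    | appR _ hP =>
      exact Or.inr (Or.inl ⟨_, WH.app _ hw, Step.appR _ hP⟩)

/-- Weak head expansion preserves accessibility. -/
theorem acc_head_exp :
    ∀ M' : Tm S, Acc (Relation.TransGen (fun X Y : Tm S => Step Y X)) M' →
      ∀ N : Tm S, Acc (fun X Y : Tm S => Step Y X) N →
        ∀ A : Tm S, Acc (fun X Y : Tm S => Step Y X) A →
          ∀ M : Tm S, WH M M' A N → Acc (fun X Y : Tm S => Step Y X) M := by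
  intro M' hM'
  induction hM' with
  | intro M' hM'acc ihM' =>
    intro N hN
    induction hN with
    | intro N hNacc ihN =>
      intro A hA
      induction hA with
      | intro A hAacc ihA =>
        intro M hw
        have accM' : Acc (fun X Y : Tm S => Step Y X) M' := by
          have h1 : Acc (Relation.TransGen (fun X Y : Tm S => Step Y X)) M' :=
            Acc.intro M' hM'acc
          have hsub : Subrelation (fun X Y : Tm S => Step Y X)
              (Relation.TransGen (fun X Y : Tm S => Step Y X)) :=
            fun hxy => Relation.TransGen.single hxy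
          exact hsub.accessible h1
        have accN : Acc (fun X Y : Tm S => Step Y X) N := Acc.intro N hNacc
        have accA : Acc (fun X Y : Tm S => Step Y X) A := Acc.intro A hAacc
        constructor
        intro X hX
        rcases hw.commute X hX with rfl | ⟨M'', hw', hs⟩ | ⟨A', hA', hw'⟩ | ⟨N', M'', hN', hw', hr⟩
        · exact accM'
        · exact ihM' M'' (Relation.TransGen.single hs) N accN A accA X hw'
        · exact ihA A' hA' X hw'
        · have hr' : Relation.ReflTransGen (fun X Y : Tm S => Step Y X) M'' M' :=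
            Relation.reflTransGen_swap.mpr hr
          rcases Relation.reflTransGen_iff_eq_or_transGen.mp hr' with heq | htg
          · subst heq
            exact ihN N' hN' A accA X hw'
          · exact ihM' M'' htg N' (hNacc N' hN') A accA X hw'

/-- Neutral terms in the plain sense: a variable applied to arguments. -/
inductive Neu : Tm S → Prop
  | var (n : ℕ) : Neu (Tm.var n)
  | app {M : Tm S} (N : Tm S) : Neu M → Neu (Tm.app M N)

theorem SNI.neu_aux {b : Bool} {M : Tm S} (h : SNI b M) : b = true → Neu M := by
  induction h with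
  | var n => intro _; exact Neu.var n
  | app _ _ ih1 _ => intro _; exact Neu.app _ (ih1 rfl)
  | ne _ _ => intro hb; cases hb
  | sort s => intro hb; cases hb
  | pi _ _ _ _ => intro hb; cases hb
  | lam _ _ _ _ => intro hb; cases hb
  | exp _ _ _ _ _ _ _ => intro hb; cases hb

theorem SNI.neu {M : Tm S} (h : SNI true M) : Neu M := h.neu_aux rfl

theorem Neu.step {M : Tm S} (h : Neu M) : ∀ X : Tm S, Step M X → Neu X := by
  induction h with
  | var n => intro X hX; cases hX
  | app N hM ih =>
    intro X hX
    cases hX with
    | beta _ _ _ => cases hM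
    | appL _ h' => exact Neu.app _ (ih _ h')
    | appR _ h' => exact Neu.app _ hM

theorem acc_app_neu :
    ∀ M : Tm S, Acc (fun X Y : Tm S => Step Y X) M →
      ∀ N : Tm S, Acc (fun X Y : Tm S => Step Y X) N → Neu M →
        Acc (fun X Y : Tm S => Step Y X) (Tm.app M N) := by
  intro M hM
  induction hM with
  | intro M hMacc ihM =>
    intro N hN
    induction hN with
    | intro N hNacc ihN =>
      intro hneu
      constructor
      intro X hX
      cases hX with
      | beta _ _ _ => cases hneu
      | appL _ h' => exact ihM _ h' N (Acc.intro N hNacc) (hneu.step _ h')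
      | appR _ h' => exact ihN _ h' hneu

theorem acc_pi :
    ∀ A : Tm S, Acc (fun X Y : Tm S => Step Y X) A →
      ∀ B : Tm S, Acc (fun X Y : Tm S => Step Y X) B →
        Acc (fun X Y : Tm S => Step Y X) (Tm.pi A B) := by
  intro A hA
  induction hA with
  | intro A hAacc ihA =>
    intro B hB
    induction hB with
    | intro B hBacc ihB =>
      constructor
      intro X hX
      cases hX with
      | piL _ h' => exact ihA _ h' B (Acc.intro B hBacc)
      | piR _ h' => exact ihB _ h'

theorem acc_lam :
    ∀ A : Tm S, Acc (fun X Y : Tm S => Step Y X) A →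
      ∀ B : Tm S, Acc (fun X Y : Tm S => Step Y X) B →
        Acc (fun X Y : Tm S => Step Y X) (Tm.lam A B) := by
  intro A hA
  induction hA with
  | intro A hAacc ihA =>
    intro B hB
    induction hB with
    | intro B hBacc ihB =>
      constructor
      intro X hX
      cases hX with
      | lamL _ h' => exact ihA _ h' B (Acc.intro B hBacc)
      | lamR _ h' => exact ihB _ h'

theorem SNI.acc {b : Bool} {M : Tm S} (h : SNI b M) : Acc (fun X Y : Tm S => Step Y X) M := by
  induction h with
  | var n =>
    constructor
    intro X hX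
    cases hX
  | app h1 _ ih1 ih2 => exact acc_app_neu _ ih1 _ ih2 h1.neu
  | ne _ ih => exact ih
  | sort s =>
    constructor
    intro X hX
    cases hX
  | pi _ _ ih1 ih2 => exact acc_pi _ ih1 _ ih2
  | lam _ _ ih1 ih2 => exact acc_lam _ ih1 _ ih2
  | exp hw _ _ _ ihA ihN ihM' => exact acc_head_exp _ ihM'.transGen _ ihN _ ihA _ hw

theorem acc_no_infinite :
    ∀ M : Tm S, Acc (fun X Y : Tm S => Step Y X) M →
      ∀ f : ℕ → Tm S, f 0 = M → (∀ n : ℕ, Step (f n) (f (n + 1))) → False := by
  intro M hM
  induction hM with
  | intro M _ ih =>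
    intro f h0 hf
    exact ih (f 1) (by rw [← h0]; exact hf 0) (fun n => f (n + 1)) rfl (fun n => hf (n + 1))

theorem SNI.no_infinite {M : Tm S} (h : SNI false M) : ¬ HasInfiniteReduction M := by
  rintro ⟨f, h0, hf⟩
  exact acc_no_infinite M h.acc f h0 hf

end Vale.Agent.Lib.P340
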