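import Vale.Agent.Lib.P340.Gen
import Vale.Agent.Lib.P340.SNI

/-!
# Strong normalisation of stratified pure type systems

If the sorts carry a rank `ρ : S → α` into a preorder with well-founded `<` such that every rule `(s₁, s₂, s₃)` satisfies
`ρ s₁ < ρ s₃` and `ρ s₂ ≤ ρ s₃`, then every typable term is strongly normalising.  The proof is
a hereditary substitution argument: by induction on the rank of the sort of the substituted
type, (1) the application of a strongly normalising function to a strongly normalising argument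
is strongly normalising, and (2) substituting a strongly normalising term preserves strong
normalisation.
-/

namespace Vale.Agent.Lib.P340

universe u v

variable {S : Type u} {Ax : S → S → Prop} {Ru : S → S → S → Prop}

variable {α : Type v} [Preorder α]

theorem SNI.liftN {b : Bool} {M : Tm S} (h : SNI b M) (n : ℕ) :
    SNI b (Vale.Agent.Lib.P340.liftN n M) := by
  induction n with
  | zero => exact h
  | succ n ih => exact ih.lift 0

/-- The domain and the argument of a weak head redex of a typable term are typable. -/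
theorem wh_typing {M M' A N : Tm S} (h : WH M M' A N) :
    ∀ {Γ : List (Tm S)} {T : Tm S}, Typing Ax Ru Γ M T →
      ∃ s T', Typing Ax Ru Γ A (Tm.sort s) ∧ Typing Ax Ru Γ N T' := by
  induction h with
  | beta A M N =>
    intro Γ T ht
    obtain ⟨A', B', hlam, hNt, -⟩ := Typing.gen_app ht
    obtain ⟨B, s, -, hpi, -⟩ := Typing.gen_lam hlam
    obtain ⟨u₁, _, _, _, hAt, _, _⟩ := Typing.gen_pi hpi
    exact ⟨u₁, A', hAt, hNt⟩
  | app P _ ih =>
    intro Γ T ht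
    obtain ⟨A', B', hM, -, -⟩ := Typing.gen_app ht
    exact ih hM

/-- Substitution property at rank `r`: substituting a strongly normalising term whose type lives
in a sort of rank at most `r` preserves strong normalisation; moreover a neutral term either
stays neutral or acquires a type living in a sort of rank at most `r`. -/
def SubProp (Ax : S → S → Prop) (Ru : S → S → S → Prop) (ρ : S → α) (r : α) : Prop :=
  ∀ (b : Bool) (M : Tm S), SNI b M → ∀ (Δ Γ : List (Tm S)) (A N₀ T : Tm S) (s : S),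
    Typing Ax Ru (Δ ++ A :: Γ) M T → Typing Ax Ru Γ N₀ A → Typing Ax Ru Γ A (Tm.sort s) →
    ρ s ≤ r → SNI false N₀ →
    SNI false (subst Δ.length (liftN Δ.length N₀) M) ∧
    (b = true → SNI true (subst Δ.length (liftN Δ.length N₀) M) ∨
      ∃ (U : Tm S) (s' : S), Conv (subst Δ.length (liftN Δ.length N₀) T) U ∧
        Typing Ax Ru (substCtx N₀ Δ ++ Γ) U (Tm.sort s') ∧ ρ s' ≤ r)

/-- Application property at rank `r`: applying a strongly normalising term whose product type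
lives in a sort of rank at most `r` to a strongly normalising argument is strongly normalising. -/
def AppProp (Ax : S → S → Prop) (Ru : S → S → S → Prop) (ρ : S → α) (r : α) : Prop :=
  ∀ (b : Bool) (P : Tm S), SNI b P → ∀ (Γ : List (Tm S)) (C D Q : Tm S) (s : S),
    Typing Ax Ru Γ P (Tm.pi C D) → Typing Ax Ru Γ (Tm.pi C D) (Tm.sort s) → ρ s ≤ r →
    SNI false Q → Typing Ax Ru Γ Q C → SNI false (Tm.app P Q)

theorem appProp_of_subProp {ρ : S → α}
    (hρ : ∀ s₁ s₂ s₃, Ru s₁ s₂ s₃ → ρ s₁ < ρ s₃ ∧ ρ s₂ ≤ ρ s₃) (r : α)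
    (hsub : ∀ r' < r, SubProp Ax Ru ρ r') : AppProp Ax Ru ρ r := by
  intro b P hP
  induction hP with
  | var n =>
    intro Γ C D Q s hPt hpi hr hQ hQt
    exact SNI.ne (SNI.app (SNI.var n) hQ)
  | app hM hN _ _ =>
    intro Γ C D Q s hPt hpi hr hQ hQt
    exact SNI.ne (SNI.app (SNI.app hM hN) hQ)
  | ne _ ih => exact ih
  | sort s₀ =>
    intro Γ C D Q s hPt hpi hr hQ hQt
    obtain ⟨s', _, hc⟩ := Typing.gen_sort hPt
    exact absurd hc.symm not_conv_sort_pi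
  | pi hA hB _ _ =>
    intro Γ C D Q s hPt hpi hr hQ hQt
    obtain ⟨_, _, s₃, _, _, _, hc⟩ := Typing.gen_pi hPt
    exact absurd hc.symm not_conv_sort_pi
  | @lam A M hA hM _ _ =>
    intro Γ C D Q s hPt hpi hr hQ hQt
    obtain ⟨B, s', hMt, hpi', hc⟩ := Typing.gen_lam hPt
    obtain ⟨hcC, hcD⟩ := conv_pi_inj hc
    obtain ⟨C'', hC1, hC2⟩ := conv_common_reduct hcC
    have hpi'' : Typing Ax Ru Γ (Tm.pi C'' D) (Tm.sort s) := hpi.red (Red.piL D hC1)
    obtain ⟨u₁, u₂, u₃, hR, hC''t, _, hcs⟩ := Typing.gen_pi hpi''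
    have hu : s = u₃ := conv_sort_sort hcs
    have hlt : ρ u₁ < r := lt_of_lt_of_le (hρ _ _ _ hR).1 (hu ▸ hr)
    have hQt' : Typing Ax Ru Γ Q C'' := Typing.conv hQt hC''t (Conv.of_red hC1)
    have hMt' : Typing Ax Ru (C'' :: Γ) M B := Typing.ctx_conv0 (Conv.of_red hC2) hC''t hMt
    have hsn := (hsub (ρ u₁) hlt false M hM [] Γ C'' Q B u₁ hMt' hQt' hC''t le_rfl hQ).1
    exact SNI.exp (WH.beta A M Q) hA hQ hsn
  | @exp M M' A N hWH hA hN hM' _ _ ih =>
    intro Γ C D Q s hPt hpi hr hQ hQt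
    exact SNI.exp (WH.app Q hWH) hA hN (ih Γ C D Q s (hPt.step hWH.step) hpi hr hQ hQt)

theorem subProp_of_appProp {ρ : S → α}
    (hρ : ∀ s₁ s₂ s₃, Ru s₁ s₂ s₃ → ρ s₁ < ρ s₃ ∧ ρ s₂ ≤ ρ s₃) (r : α)
    (happ : AppProp Ax Ru ρ r) : SubProp Ax Ru ρ r := by
  intro b M hM
  induction hM with
  | var n =>
    intro Δ Γ A N₀ T s hMt hN hA hr hN₀
    rcases lt_trichotomy n Δ.length with hlt | heq | hgt
    · have e : subst Δ.length (liftN Δ.length N₀) (Tm.var n) = Tm.var n := by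
        rw [subst_var, if_pos hlt]
      rw [e]
      exact ⟨SNI.ne (SNI.var n), fun _ => Or.inl (SNI.var n)⟩
    · subst heq
      have e : subst Δ.length (liftN Δ.length N₀) (Tm.var Δ.length) = liftN Δ.length N₀ := by
        rw [subst_var, if_neg (lt_irrefl _), if_pos rfl]
      rw [e]
      refine ⟨hN₀.liftN _, fun _ => Or.inr ⟨liftN Δ.length A, s, ?_, ?_, hr⟩⟩
      · obtain ⟨A', hA', hc⟩ := Typing.gen_var hMt
        have hAA : A' = A := by simpa using hA'.symm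
        subst hAA
        have h1 := hc.subst Δ.length (liftN Δ.length N₀)
        rwa [subst_liftN_succ] at h1
      · have h1 := Typing.subst_lemma hN hMt
        have h2 := Typing.weakN hA h1
        rw [substCtx_length, liftN_sort] at h2
        exact h2
    · have e : subst Δ.length (liftN Δ.length N₀) (Tm.var n) = Tm.var (n - 1) := by
        rw [subst_var, if_neg (by omega), if_neg (by omega)]
      rw [e]
      exact ⟨SNI.ne (SNI.var _), fun _ => Or.inl (SNI.var _)⟩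
  | @app M₁ N₁ hM₁ hN₁ ihM ihN =>
    intro Δ Γ A N₀ T s hMt hN hA hr hN₀
    obtain ⟨A₁, B₁, hM₁t, hN₁t, hc⟩ := Typing.gen_app hMt
    obtain ⟨hM₁s, hM₁n⟩ := ihM Δ Γ A N₀ _ s hM₁t hN hA hr hN₀
    obtain ⟨hN₁s, -⟩ := ihN Δ Γ A N₀ _ s hN₁t hN hA hr hN₀
    rw [subst_app]
    rcases hM₁n rfl with hne | ⟨U, s', hcU, hUt, hs'⟩
    · exact ⟨SNI.ne (SNI.app hne hN₁s), fun _ => Or.inl (SNI.app hne hN₁s)⟩
    · have hM₁t' := Typing.subst_lemma hN hM₁t
      have hN₁t' := Typing.subst_lemma hN hN₁t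
      rw [subst_pi] at hM₁t' hcU
      obtain ⟨P, hP1, hP2⟩ := conv_common_reduct hcU
      obtain ⟨C, D, rfl, hC, hD⟩ := red_pi_inv hP1
      have hpi : Typing Ax Ru (substCtx N₀ Δ ++ Γ) (Tm.pi C D) (Tm.sort s') := hUt.red hP2
      obtain ⟨u₁, u₂, u₃, hR, hCt, hDt, hcs⟩ := Typing.gen_pi hpi
      have hu : s' = u₃ := conv_sort_sort hcs
      have hM₁t'' := Typing.conv hM₁t' hpi (Conv.of_red hP1)
      have hN₁t'' := Typing.conv hN₁t' hCt (Conv.of_red hC)
      have happ' := happ false _ hM₁s _ C D _ s' hM₁t'' hpi hs' hN₁s hN₁t''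
      refine ⟨happ', fun _ => Or.inr ⟨subst 0 (subst Δ.length (liftN Δ.length N₀) N₁) D, u₂, ?_,
        Typing.subst0 hN₁t'' hDt, ?_⟩⟩
      · have h1 := hc.subst Δ.length (liftN Δ.length N₀)
        rw [subst_subst B₁ 0 Δ.length _ N₁ (Nat.zero_le _)] at h1
        exact h1.trans ((Conv.of_red hD).subst 0 _)
      · exact le_trans (hρ _ _ _ hR).2 (hu ▸ hs')
  | ne _ ih =>
    intro Δ Γ A N₀ T s hMt hN hA hr hN₀
    exact ⟨(ih Δ Γ A N₀ T s hMt hN hA hr hN₀).1, fun h => Bool.noConfusion h⟩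
  | sort s₀ =>
    intro Δ Γ A N₀ T s hMt hN hA hr hN₀
    exact ⟨SNI.sort s₀, fun h => Bool.noConfusion h⟩
  | @pi A₁ B₁ hA₁ hB₁ ihA ihB =>
    intro Δ Γ A N₀ T s hMt hN hA hr hN₀
    obtain ⟨u₁, u₂, u₃, hR, hA₁t, hB₁t, -⟩ := Typing.gen_pi hMt
    have h1 := (ihA Δ Γ A N₀ _ s hA₁t hN hA hr hN₀).1
    have h2 := (ihB (A₁ :: Δ) Γ A N₀ _ s hB₁t hN hA hr hN₀).1
    exact ⟨SNI.pi h1 h2, fun h => Bool.noConfusion h⟩
  | @lam A₁ M₁ hA₁ hM₁ ihA ihM =>
    intro Δ Γ A N₀ T s hMt hN hA hr hN₀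
    obtain ⟨B₁, s₁, hM₁t, hpi, -⟩ := Typing.gen_lam hMt
    obtain ⟨u₁, u₂, u₃, hR, hA₁t, -, -⟩ := Typing.gen_pi hpi
    have h1 := (ihA Δ Γ A N₀ _ s hA₁t hN hA hr hN₀).1
    have h2 := (ihM (A₁ :: Δ) Γ A N₀ _ s hM₁t hN hA hr hN₀).1
    exact ⟨SNI.lam h1 h2, fun h => Bool.noConfusion h⟩
  | @exp M M' A₁ N₁ hWH hA₁ hN₁ hM' ihA ihN ihM' =>
    intro Δ Γ A N₀ T s hMt hN hA hr hN₀
    obtain ⟨t, T', hA₁t, hN₁t⟩ := wh_typing hWH hMt
    have h1 := (ihA Δ Γ A N₀ _ s hA₁t hN hA hr hN₀).1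
    have h2 := (ihN Δ Γ A N₀ _ s hN₁t hN hA hr hN₀).1
    have h3 := (ihM' Δ Γ A N₀ _ s (hMt.step hWH.step) hN hA hr hN₀).1
    exact ⟨SNI.exp (hWH.subst _ _) h1 h2 h3, fun h => Bool.noConfusion h⟩

theorem sub_app_prop [WellFoundedLT α] {ρ : S → α}
    (hρ : ∀ s₁ s₂ s₃, Ru s₁ s₂ s₃ → ρ s₁ < ρ s₃ ∧ ρ s₂ ≤ ρ s₃) (r : α) :
    SubProp Ax Ru ρ r ∧ AppProp Ax Ru ρ r := by
  induction r using WellFoundedLT.induction with
  | _ r ih =>
    have happ := appProp_of_subProp hρ r (fun r' hr' => (ih r' hr').1)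
    exact ⟨subProp_of_appProp hρ r happ, happ⟩

/-- Every typable term of a stratified pure type system is (inductively) strongly normalising. -/
theorem sni_of_typing [WellFoundedLT α] {ρ : S → α}
    (hρ : ∀ s₁ s₂ s₃, Ru s₁ s₂ s₃ → ρ s₁ < ρ s₃ ∧ ρ s₂ ≤ ρ s₃)
    {Γ : List (Tm S)} {M T : Tm S} (h : Typing Ax Ru Γ M T) : SNI false M := by
  induction h with
  | ax _ => exact SNI.sort _
  | var _ _ => exact SNI.ne (SNI.var 0)
  | weak _ _ ih _ => exact ih.lift 0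
  | prod _ _ _ ih₁ ih₂ => exact SNI.pi ih₁ ih₂
  | abs _ _ ih₁ ih₂ => exact SNI.lam (SNI.pi_inv ih₂).1 ih₁
  | app h₁ h₂ ih₁ ih₂ =>
    rcases Typing.type_correct h₁ with ⟨s, hs⟩ | ⟨s, hs⟩
    · cases hs
    · exact (sub_app_prop hρ (ρ s)).2 false _ ih₁ _ _ _ _ s h₁ hs le_rfl ih₂ h₂
  | conv _ _ _ ih _ => exact ih

/-- Stratified pure type systems are strongly normalising. -/
theorem stratified_sn [WellFoundedLT α] (ρ : S → α)
    (hρ : ∀ s₁ s₂ s₃, Ru s₁ s₂ s₃ → ρ s₁ < ρ s₃ ∧ ρ s₂ ≤ ρ s₃) :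
    StronglyNormalizing Ax Ru := by
  intro M hM
  obtain ⟨Γ, N, h | h⟩ := hM
  · exact (sni_of_typing hρ h).no_infinite
  · rcases Typing.type_correct h with ⟨s, rfl⟩ | ⟨s, hs⟩
    · exact (SNI.sort s).no_infinite
    · exact (sni_of_typing hρ hs).no_infinite

end Vale.Agent.Lib.P340
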