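import Vale.Agent.Lib.P340.Basic

/-!
# Algebra of lifting and substitution for de Bruijn terms
-/

namespace Vale.Agent.Lib.P340

universe u

variable {S : Type u}

@[simp] theorem lift_sort (c : ℕ) (s : S) : lift c (Tm.sort s) = Tm.sort s := rfl
@[simp] theorem lift_app (c : ℕ) (M N : Tm S) :
    lift c (Tm.app M N) = Tm.app (lift c M) (lift c N) := rfl
@[simp] theorem lift_lam (c : ℕ) (A M : Tm S) :
    lift c (Tm.lam A M) = Tm.lam (lift c A) (lift (c + 1) M) := rfl
@[simp] theorem lift_pi (c : ℕ) (A B : Tm S) :
    lift c (Tm.pi A B) = Tm.pi (lift c A) (lift (c + 1) B) := rfl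
@[simp] theorem subst_sort (k : ℕ) (N : Tm S) (s : S) : subst k N (Tm.sort s) = Tm.sort s := rfl
@[simp] theorem subst_app (k : ℕ) (N M P : Tm S) :
    subst k N (Tm.app M P) = Tm.app (subst k N M) (subst k N P) := rfl
@[simp] theorem subst_lam (k : ℕ) (N A M : Tm S) :
    subst k N (Tm.lam A M) = Tm.lam (subst k N A) (subst (k + 1) (lift 0 N) M) := rfl
@[simp] theorem subst_pi (k : ℕ) (N A B : Tm S) :
    subst k N (Tm.pi A B) = Tm.pi (subst k N A) (subst (k + 1) (lift 0 N) B) := rfl

theorem lift_var (c n : ℕ) :
    lift c (Tm.var n : Tm S) = if n < c then Tm.var n else Tm.var (n + 1) := rfl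

theorem subst_var (k : ℕ) (N : Tm S) (n : ℕ) :
    subst k N (Tm.var n) = if n < k then Tm.var n else if n = k then N else Tm.var (n - 1) := rfl

/-- Lifts commute. -/
theorem lift_lift (M : Tm S) : ∀ (i c : ℕ), i ≤ c →
    lift (c + 1) (lift i M) = lift i (lift c M) := by
  induction M with
  | var n =>
    intro i c h
    simp only [lift_var]
    split_ifs <;> (try simp only [lift_var]) <;> (try split_ifs) <;>
      first | rfl | (exfalso; omega) | (congr 1; omega)
  | sort s => intro i c h; rfl
  | app M N ihM ihN => intro i c h; simp only [lift_app, ihM i c h, ihN i c h]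
  | lam A M ihA ihM =>
    intro i c h
    simp only [lift_lam, ihA i c h, ihM (i + 1) (c + 1) (by omega)]
  | pi A B ihA ihB =>
    intro i c h
    simp only [lift_pi, ihA i c h, ihB (i + 1) (c + 1) (by omega)]

/-- Substituting for a freshly lifted index does nothing. -/
theorem subst_lift_cancel (M : Tm S) : ∀ (k : ℕ) (N : Tm S), subst k N (lift k M) = M := by
  induction M with
  | var n =>
    intro k N
    simp only [lift_var]
    split_ifs with h
    · simp only [subst_var, if_pos h]
    · simp only [subst_var]
      rw [if_neg (by omega), if_neg (by omega)]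
      rfl
  | sort s => intro k N; rfl
  | app M P ihM ihP => intro k N; simp only [lift_app, subst_app, ihM, ihP]
  | lam A M ihA ihM => intro k N; simp only [lift_lam, subst_lam, ihA, ihM]
  | pi A B ihA ihB => intro k N; simp only [lift_pi, subst_pi, ihA, ihB]

/-- Lifting above the substituted index. -/
theorem lift_subst (M : Tm S) : ∀ (k c : ℕ) (N : Tm S), k ≤ c →
    lift c (subst k N M) = subst k (lift c N) (lift (c + 1) M) := by
  induction M with
  | var n =>
    intro k c N h
    simp only [subst_var, lift_var]
    split_ifs <;> (try simp only [subst_var, lift_var]) <;> (try split_ifs) <;>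
      first | rfl | (exfalso; omega) | (congr 1; omega)
  | sort s => intro k c N h; rfl
  | app M P ihM ihP => intro k c N h; simp only [lift_app, subst_app, ihM k c N h, ihP k c N h]
  | lam A M ihA ihM =>
    intro k c N h
    simp only [lift_lam, subst_lam, ihA k c N h, ihM (k + 1) (c + 1) (lift 0 N) (by omega),
      lift_lift N 0 c (Nat.zero_le c)]
  | pi A B ihA ihB =>
    intro k c N h
    simp only [lift_pi, subst_pi, ihA k c N h, ihB (k + 1) (c + 1) (lift 0 N) (by omega),
      lift_lift N 0 c (Nat.zero_le c)]

/-- Lifting below the substituted index. -/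
theorem lift_subst_le (M : Tm S) : ∀ (k c : ℕ) (N : Tm S), c ≤ k →
    lift c (subst k N M) = subst (k + 1) (lift c N) (lift c M) := by
  induction M with
  | var n =>
    intro k c N h
    simp only [subst_var, lift_var]
    split_ifs <;> (try simp only [subst_var, lift_var]) <;> (try split_ifs) <;>
      first | rfl | (exfalso; omega) | (congr 1; omega)
  | sort s => intro k c N h; rfl
  | app M P ihM ihP => intro k c N h; simp only [lift_app, subst_app, ihM k c N h, ihP k c N h]
  | lam A M ihA ihM =>
    intro k c N h
    simp only [lift_lam, subst_lam, ihA k c N h, ihM (k + 1) (c + 1) (lift 0 N) (by omega),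
      lift_lift N 0 c (Nat.zero_le c)]
  | pi A B ihA ihB =>
    intro k c N h
    simp only [lift_pi, subst_pi, ihA k c N h, ihB (k + 1) (c + 1) (lift 0 N) (by omega),
      lift_lift N 0 c (Nat.zero_le c)]

/-- Substitutions commute. -/
theorem subst_subst (M : Tm S) : ∀ (j k : ℕ) (N P : Tm S), j ≤ k →
    subst k N (subst j P M) = subst j (subst k N P) (subst (k + 1) (lift j N) M) := by
  induction M with
  | var n =>
    intro j k N P h
    simp only [subst_var]
    split_ifs <;> (try simp only [subst_var, subst_lift_cancel]) <;> (try split_ifs) <;>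
      first | rfl | (exfalso; omega) | (congr 1; omega)
  | sort s => intro j k N P h; rfl
  | app M Q ihM ihQ =>
    intro j k N P h
    simp only [subst_app, ihM j k N P h, ihQ j k N P h]
  | lam A M ihA ihM =>
    intro j k N P h
    simp only [subst_lam, ihA j k N P h, ihM (j + 1) (k + 1) (lift 0 N) (lift 0 P) (by omega),
      lift_subst_le P k 0 N (Nat.zero_le k), lift_lift N 0 j (Nat.zero_le j)]
  | pi A B ihA ihB =>
    intro j k N P h
    simp only [subst_pi, ihA j k N P h, ihB (j + 1) (k + 1) (lift 0 N) (lift 0 P) (by omega),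
      lift_subst_le P k 0 N (Nat.zero_le k), lift_lift N 0 j (Nat.zero_le j)]

/-- Iterated lifting at index `0`. -/
def liftN : ℕ → Tm S → Tm S
  | 0, M => M
  | n + 1, M => lift 0 (liftN n M)

@[simp] theorem liftN_zero (M : Tm S) : liftN 0 M = M := rfl
theorem liftN_succ (n : ℕ) (M : Tm S) : liftN (n + 1) M = lift 0 (liftN n M) := rfl

@[simp] theorem liftN_sort (n : ℕ) (s : S) : liftN n (Tm.sort s) = Tm.sort s := by
  induction n with
  | zero => rfl
  | succ n ih => rw [liftN_succ, ih]; rfl

theorem lift_liftN (n : ℕ) (M : Tm S) : lift n (liftN n M) = lift 0 (liftN n M) := by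
  induction n with
  | zero => rfl
  | succ n ih =>
    rw [liftN_succ, lift_lift _ 0 n (Nat.zero_le n), ih]

theorem subst_liftN_succ (k : ℕ) (N M : Tm S) : subst k N (liftN (k + 1) M) = liftN k M := by
  rw [liftN_succ, ← lift_liftN, subst_lift_cancel]

end Vale.Agent.Lib.P340
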