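import Vale.Agent.Lib.P340.Red

/-!
# Thinning and substitution lemmas for pure type system typing derivations
-/

namespace Vale.Agent.Lib.P340

universe u

variable {S : Type u} {Ax : S → S → Prop} {Ru : S → S → S → Prop}

/-- Lift the entries of a context front: the entry with `j` entries below it is lifted at `j`. -/
def liftCtx : List (Tm S) → List (Tm S)
  | [] => []
  | D :: Δ => lift Δ.length D :: liftCtx Δ

/-- Substitute `N₀` (suitably lifted) in a context front. -/
def substCtx (N₀ : Tm S) : List (Tm S) → List (Tm S)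
  | [] => []
  | D :: Δ => subst Δ.length (liftN Δ.length N₀) D :: substCtx N₀ Δ

theorem liftCtx_length (Δ : List (Tm S)) : (liftCtx Δ).length = Δ.length := by
  induction Δ with
  | nil => rfl
  | cons D Δ ih => simp [liftCtx, ih]

theorem substCtx_length (N₀ : Tm S) (Δ : List (Tm S)) : (substCtx N₀ Δ).length = Δ.length := by
  induction Δ with
  | nil => rfl
  | cons D Δ ih => simp [substCtx, ih]

theorem Typing.thin {Γ : List (Tm S)} {C : Tm S} {s : S} (hC : Typing Ax Ru Γ C (Tm.sort s)) :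
    ∀ {Δ : List (Tm S)} {M T : Tm S}, Typing Ax Ru (Δ ++ Γ) M T →
      Typing Ax Ru (liftCtx Δ ++ C :: Γ) (lift Δ.length M) (lift Δ.length T) := by
  intro Δ M T h
  generalize hG : Δ ++ Γ = G at h
  induction h generalizing Δ with
  | ax hax =>
    obtain ⟨rfl, rfl⟩ := List.append_eq_nil_iff.mp hG
    exact Typing.weak (Typing.ax hax) hC
  | @var Γ₀ A s₀ hA ih =>
    cases Δ with
    | nil =>
      simp only [List.nil_append] at hG
      subst hG
      exact Typing.weak (Typing.var hA) hC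
    | cons D Δ' =>
      simp only [List.cons_append, List.cons.injEq] at hG
      obtain ⟨rfl, hG⟩ := hG
      have h1 := ih hG
      have e1 : lift (Δ'.length + 1) (Tm.var 0 : Tm S) = Tm.var 0 := by
        simp [lift_var]
      have e2 : lift (Δ'.length + 1) (lift 0 D) = lift 0 (lift Δ'.length D) :=
        lift_lift D 0 Δ'.length (Nat.zero_le _)
      show Typing Ax Ru (lift Δ'.length D :: (liftCtx Δ' ++ C :: Γ))
        (lift (Δ'.length + 1) (Tm.var 0)) (lift (Δ'.length + 1) (lift 0 D))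
      rw [e1, e2]
      exact Typing.var h1
  | @weak Γ₀ M₀ B A s₀ hM hA ihM ihA =>
    cases Δ with
    | nil =>
      simp only [List.nil_append] at hG
      subst hG
      exact Typing.weak (Typing.weak hM hA) hC
    | cons D Δ' =>
      simp only [List.cons_append, List.cons.injEq] at hG
      obtain ⟨rfl, hG⟩ := hG
      have h1 := ihM hG
      have h2 := ihA hG
      have e1 : lift (Δ'.length + 1) (lift 0 M₀) = lift 0 (lift Δ'.length M₀) :=
        lift_lift M₀ 0 Δ'.length (Nat.zero_le _)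
      have e2 : lift (Δ'.length + 1) (lift 0 B) = lift 0 (lift Δ'.length B) :=
        lift_lift B 0 Δ'.length (Nat.zero_le _)
      show Typing Ax Ru (lift Δ'.length D :: (liftCtx Δ' ++ C :: Γ))
        (lift (Δ'.length + 1) (lift 0 M₀)) (lift (Δ'.length + 1) (lift 0 B))
      rw [e1, e2]
      exact Typing.weak h1 h2
  | @prod Γ₀ A B s₁ s₂ s₃ hR hA hB ihA ihB =>
    have h1 := ihA hG
    have h2 := ihB (Δ := A :: Δ) (by simp [hG])
    exact Typing.prod hR h1 h2
  | @abs Γ₀ A M₀ B s₀ hM hP ihM ihP =>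
    have h1 := ihM (Δ := A :: Δ) (by simp [hG])
    have h2 := ihP hG
    exact Typing.abs h1 h2
  | @app Γ₀ M₀ N A B hM hN ihM ihN =>
    have h1 := ihM hG
    have h2 := ihN hG
    have e : lift Δ.length (subst 0 N B) = subst 0 (lift Δ.length N) (lift (Δ.length + 1) B) :=
      lift_subst B 0 Δ.length N (Nat.zero_le _)
    show Typing Ax Ru (liftCtx Δ ++ C :: Γ) (Tm.app (lift Δ.length M₀) (lift Δ.length N))
      (lift Δ.length (subst 0 N B))
    rw [e]
    exact Typing.app h1 h2
  | @conv Γ₀ M₀ A B s₀ hM hB hconv ihM ihB =>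
    exact Typing.conv (ihM hG) (ihB hG) (Conv.lift hconv Δ.length)

theorem Typing.subst_lemma {Γ : List (Tm S)} {A N₀ : Tm S} (hN : Typing Ax Ru Γ N₀ A) :
    ∀ {Δ : List (Tm S)} {M T : Tm S}, Typing Ax Ru (Δ ++ A :: Γ) M T →
      Typing Ax Ru (substCtx N₀ Δ ++ Γ) (subst Δ.length (liftN Δ.length N₀) M)
        (subst Δ.length (liftN Δ.length N₀) T) := by
  intro Δ M T h
  generalize hG : Δ ++ A :: Γ = G at h
  induction h generalizing Δ with
  | ax hax =>
    exact absurd hG (by simp)
  | @var Γ₀ A₀ s₀ hA ih =>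
    cases Δ with
    | nil =>
      simp only [List.nil_append, List.cons.injEq] at hG
      obtain ⟨rfl, rfl⟩ := hG
      have e1 : subst 0 (liftN 0 N₀) (Tm.var 0 : Tm S) = N₀ := by
        simp [subst_var]
      have e2 : subst 0 (liftN 0 N₀) (lift 0 A) = A := subst_lift_cancel A 0 _
      show Typing Ax Ru Γ (subst 0 (liftN 0 N₀) (Tm.var 0)) (subst 0 (liftN 0 N₀) (lift 0 A))
      rw [e1, e2]
      exact hN
    | cons D Δ' =>
      simp only [List.cons_append, List.cons.injEq] at hG
      obtain ⟨rfl, hG⟩ := hG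
      have h1 := ih hG
      have e1 : subst (Δ'.length + 1) (liftN (Δ'.length + 1) N₀) (Tm.var 0 : Tm S) = Tm.var 0 := by
        simp [subst_var]
      have e2 : subst (Δ'.length + 1) (liftN (Δ'.length + 1) N₀) (lift 0 D)
          = lift 0 (subst Δ'.length (liftN Δ'.length N₀) D) :=
        (lift_subst_le D Δ'.length 0 (liftN Δ'.length N₀) (Nat.zero_le _)).symm
      show Typing Ax Ru (subst Δ'.length (liftN Δ'.length N₀) D :: (substCtx N₀ Δ' ++ Γ))
        (subst (Δ'.length + 1) (liftN (Δ'.length + 1) N₀) (Tm.var 0))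
        (subst (Δ'.length + 1) (liftN (Δ'.length + 1) N₀) (lift 0 D))
      rw [e1, e2]
      exact Typing.var h1
  | @weak Γ₀ M₀ B A₀ s₀ hM hA ihM ihA =>
    cases Δ with
    | nil =>
      simp only [List.nil_append, List.cons.injEq] at hG
      obtain ⟨rfl, rfl⟩ := hG
      have e1 : subst 0 (liftN 0 N₀) (lift 0 M₀) = M₀ := subst_lift_cancel M₀ 0 _
      have e2 : subst 0 (liftN 0 N₀) (lift 0 B) = B := subst_lift_cancel B 0 _
      show Typing Ax Ru Γ (subst 0 (liftN 0 N₀) (lift 0 M₀)) (subst 0 (liftN 0 N₀) (lift 0 B))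
      rw [e1, e2]
      exact hM
    | cons D Δ' =>
      simp only [List.cons_append, List.cons.injEq] at hG
      obtain ⟨rfl, hG⟩ := hG
      have h1 := ihM hG
      have h2 := ihA hG
      have e1 : subst (Δ'.length + 1) (liftN (Δ'.length + 1) N₀) (lift 0 M₀)
          = lift 0 (subst Δ'.length (liftN Δ'.length N₀) M₀) :=
        (lift_subst_le M₀ Δ'.length 0 (liftN Δ'.length N₀) (Nat.zero_le _)).symm
      have e2 : subst (Δ'.length + 1) (liftN (Δ'.length + 1) N₀) (lift 0 B)
          = lift 0 (subst Δ'.length (liftN Δ'.length N₀) B) :=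
        (lift_subst_le B Δ'.length 0 (liftN Δ'.length N₀) (Nat.zero_le _)).symm
      show Typing Ax Ru (subst Δ'.length (liftN Δ'.length N₀) D :: (substCtx N₀ Δ' ++ Γ))
        (subst (Δ'.length + 1) (liftN (Δ'.length + 1) N₀) (lift 0 M₀))
        (subst (Δ'.length + 1) (liftN (Δ'.length + 1) N₀) (lift 0 B))
      rw [e1, e2]
      exact Typing.weak h1 h2
  | @prod Γ₀ A₁ B s₁ s₂ s₃ hR hA hB ihA ihB =>
    have h1 := ihA hG
    have h2 := ihB (Δ := A₁ :: Δ) (by simp [hG])
    exact Typing.prod hR h1 h2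
  | @abs Γ₀ A₁ M₀ B s₀ hM hP ihM ihP =>
    have h1 := ihM (Δ := A₁ :: Δ) (by simp [hG])
    have h2 := ihP hG
    exact Typing.abs h1 h2
  | @app Γ₀ M₀ N A₁ B hM hN' ihM ihN =>
    have h1 := ihM hG
    have h2 := ihN hG
    have e : subst Δ.length (liftN Δ.length N₀) (subst 0 N B)
        = subst 0 (subst Δ.length (liftN Δ.length N₀) N)
            (subst (Δ.length + 1) (lift 0 (liftN Δ.length N₀)) B) :=
      subst_subst B 0 Δ.length (liftN Δ.length N₀) N (Nat.zero_le _)
    show Typing Ax Ru (substCtx N₀ Δ ++ Γ)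
      (Tm.app (subst Δ.length (liftN Δ.length N₀) M₀) (subst Δ.length (liftN Δ.length N₀) N))
      (subst Δ.length (liftN Δ.length N₀) (subst 0 N B))
    rw [e]
    exact Typing.app h1 h2
  | @conv Γ₀ M₀ A₁ B s₀ hM hB hconv ihM ihB =>
    exact Typing.conv (ihM hG) (ihB hG) (Conv.subst hconv Δ.length _)

theorem Typing.subst0 {Γ : List (Tm S)} {A N₀ M T : Tm S} (hN : Typing Ax Ru Γ N₀ A)
    (h : Typing Ax Ru (A :: Γ) M T) : Typing Ax Ru Γ (subst 0 N₀ M) (subst 0 N₀ T) :=
  Typing.subst_lemma hN (Δ := []) h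

end Vale.Agent.Lib.P340
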